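import Vale.Agent.P088.R2.H464.EP.CmpS

/-!
# P088: `Γ₂(W, W)` and the mixed square, curved against flat
-/

open Set Filter
open scoped ContDiff Topology Matrix

noncomputable section

namespace Vale.Agent.P088.R2.H912.Cw

open Vale.Agent.P088.LR Vale.Agent.P088.HY Vale.Agent.P088.R2.H961.GW Vale.Agent.P088.R2.H644.Ch
open Vale.Agent.P088.R2.H464.Cu

section alg

variable {ι : Type*} [Fintype ι]

/-- A sum over four indices. -/
def Q4 (F : ι → ι → ι → ι → ℝ) : ℝ := ∑ k, ∑ l, ∑ i, ∑ j, F k l i j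

theorem Q4_add (F G : ι → ι → ι → ι → ℝ) :
    Q4 (fun k l i j => F k l i j + G k l i j) = Q4 F + Q4 G := by
  simp only [Q4, Finset.sum_add_distrib]

theorem Q4_sub (F G : ι → ι → ι → ι → ℝ) :
    Q4 (fun k l i j => F k l i j - G k l i j) = Q4 F - Q4 G := by
  simp only [Q4, Finset.sum_sub_distrib]

theorem Q4_mul (c : ℝ) (F : ι → ι → ι → ι → ℝ) :
    Q4 (fun k l i j => c * F k l i j) = c * Q4 F := by
  simp only [Q4, Finset.mul_sum]

theorem Q4_kl (F : ι → ι → ι → ι → ℝ) : Q4 (fun k l i j => F l k i j) = Q4 F := by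
  unfold Q4
  exact Finset.sum_comm

theorem Q4_ij (F : ι → ι → ι → ι → ℝ) : Q4 (fun k l i j => F k l j i) = Q4 F := by
  unfold Q4
  exact Finset.sum_congr rfl fun k _ => Finset.sum_congr rfl fun l _ => Finset.sum_comm

theorem Q4_kl_ij (F : ι → ι → ι → ι → ℝ) : Q4 (fun k l i j => F l k j i) = Q4 F := by
  rw [← Q4_kl F, ← Q4_ij fun k l i j => F l k i j]

theorem Q4_congr {F G : ι → ι → ι → ι → ℝ} (h : ∀ k l i j, F k l i j = G k l i j) :
    Q4 F = Q4 G := by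
  unfold Q4
  exact Finset.sum_congr rfl fun k _ => Finset.sum_congr rfl fun l _ =>
    Finset.sum_congr rfl fun i _ => Finset.sum_congr rfl fun j _ => h k l i j

theorem Q4_of (F : ι → ι → ι → ι → ℝ) : ∑ i, ∑ j, ∑ k, ∑ l, F k l i j = Q4 F := by
  unfold Q4
  have h1 : ∀ i : ι, (∑ j, ∑ k, ∑ l, F k l i j) = ∑ k, ∑ l, ∑ j, F k l i j := by
    intro i
    rw [Finset.sum_comm]
    exact Finset.sum_congr rfl fun j _ => Finset.sum_comm
  simp only [h1]
  rw [Finset.sum_comm]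
  exact Finset.sum_congr rfl fun j _ => Finset.sum_comm

/-- The algebra of the Bochner formula. -/
theorem boch (S : ι → ι → ℝ) (T : ι → ι → ι → ℝ) (R : ι → ι → ι → ι → ℝ) (w : ι → ℝ)
    (H : ι → ι → ℝ) (J : ι → ι → ι → ℝ) (hS : ∀ i j, S i j = S j i)
    (hT : ∀ l i j, T l i j = T l j i) (hH : ∀ i j, H i j = H j i)
    (hJ : ∀ j k l, J j k l = J k l j) :
    1 / 2 * Q4 (fun k l i j => S k l * (R k l i j * w i * w j + T l i j * H k i * w j +
      T l i j * w i * H k j + (T k i j * H l i * w j + S i j * J k l i * w j +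
      S i j * H l i * H k j) + (T k i j * w i * H l j + S i j * H k i * H l j +
      S i j * w i * J k l j)) +
      T k k l * (T l i j * w i * w j + S i j * H l i * w j + S i j * w i * H l j)) -
      Q4 (fun k l i j => S i j * w i * (T j k l * H k l + S k l * J j k l +
        (R j k k l * w l + T k k l * H j l))) =
    Q4 fun k l i j => S k l * S i j * H i l * H j k + 1 / 2 * (S k l * R k l i j * w i * w j) +
      2 * (S k l * T k i j * H i l * w j) - S i j * w i * T j k l * H k l +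
      (1 / 2 * (T k k l * T l i j * w i * w j) - S i j * w i * R j k k l * w l) := by
  let P4 : ι → ι → ι → ι → ℝ := fun k l i j => T k k l * S i j * w i * H l j
  let P1 : ι → ι → ι → ι → ℝ := fun k l i j => S k l * S i j * H i l * H j k
  let P2 : ι → ι → ι → ι → ℝ := fun k l i j => S k l * T k i j * H i l * w j
  let P3 : ι → ι → ι → ι → ℝ := fun k l i j => S k l * S i j * w i * J k l j
  have e : Q4 (fun k l i j => S k l * (R k l i j * w i * w j + T l i j * H k i * w j +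
      T l i j * w i * H k j + (T k i j * H l i * w j + S i j * J k l i * w j +
      S i j * H l i * H k j) + (T k i j * w i * H l j + S i j * H k i * H l j +
      S i j * w i * J k l j)) +
      T k k l * (T l i j * w i * w j + S i j * H l i * w j + S i j * w i * H l j)) =
      Q4 (fun k l i j => 2 * (S i j * w i * (T j k l * H k l + S k l * J j k l +
        (R j k k l * w l + T k k l * H j l)) +
        (S k l * S i j * H i l * H j k + 1 / 2 * (S k l * R k l i j * w i * w j) +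
        2 * (S k l * T k i j * H i l * w j) - S i j * w i * T j k l * H k l +
        (1 / 2 * (T k k l * T l i j * w i * w j) - S i j * w i * R j k k l * w l))) +
        (((P1 l k i j - P1 k l i j) + ((P2 l k i j - P2 k l i j) + (P2 k l j i - P2 k l i j) +
        (P2 l k j i - P2 k l i j)) + (P3 k l j i - P3 k l i j)) +
        (P4 k l j i - P4 k l i j))) := by
    refine Q4_congr fun k l i j => ?_
    simp only [P1, P2, P3, P4]
    rw [hS l k, hS j i, hH i k, hH j l, hH i l, hH j k, hT k j i, hT l j i, hJ j k l]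
    ring
  have z1 : Q4 (fun k l i j => ((P1 l k i j - P1 k l i j) + ((P2 l k i j - P2 k l i j) +
      (P2 k l j i - P2 k l i j) + (P2 l k j i - P2 k l i j)) + (P3 k l j i - P3 k l i j)) +
      (P4 k l j i - P4 k l i j)) = 0 := by
    simp only [Q4_add, Q4_sub]
    rw [Q4_kl P1, Q4_kl P2, Q4_ij P2, Q4_kl_ij P2, Q4_ij P3, Q4_ij P4]
    ring
  rw [e, Q4_add (fun k l i j => 2 * (S i j * w i * (T j k l * H k l + S k l * J j k l +
        (R j k k l * w l + T k k l * H j l)) +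
        (S k l * S i j * H i l * H j k + 1 / 2 * (S k l * R k l i j * w i * w j) +
        2 * (S k l * T k i j * H i l * w j) - S i j * w i * T j k l * H k l +
        (1 / 2 * (T k k l * T l i j * w i * w j) - S i j * w i * R j k k l * w l)))), z1, Q4_mul,
    Q4_add (fun k l i j => S i j * w i * (T j k l * H k l + S k l * J j k l +
        (R j k k l * w l + T k k l * H j l)))]
  ring

end alg

section pw

variable {E ι : Type*} [NormedAddCommGroup E] [NormedSpace ℝ E] [Fintype ι]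

/-- A slot with the scale `1`. -/
structure S1 (σ : Sl E ι) (U : Set E) : Prop where
  op : IsOpen U
  rs : Sm U σ.ρ
  et : ∀ i z, σ.η i z = 0
  kz : ∀ i z, σ.k i z = 0
  ss : ∀ i j, Sm U (σ.s i j)
  sy : ∀ i j z, σ.s i j z = σ.s j i z

variable {σ : Sl E ι} {U : Set E} {W f g h a b c : E → ℝ} {z : E}

omit [Fintype ι] in
theorem S1.sD (o : S1 σ U) (hf : Sm U f) (i : ι) : Sm U (σ.D i f) := o.rs.mul (hf.fd o.op _)

omit [Fintype ι] in
theorem S1.cm (o : S1 σ U) (hf : Sm U f) (i j : ι) (hz : z ∈ U) :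
    σ.D i (σ.D j f) z = σ.D j (σ.D i f) z := by
  have h := D_D (σ := σ) o.op o.rs hf i j hz
  simp only [o.et] at h
  linarith

omit [Fintype ι] in
theorem S1.m3 (o : S1 σ U) (ha : Sm U a) (hb : Sm U b) (hc : Sm U c) (i : ι) (hz : z ∈ U) :
    σ.D i (fun z => a z * b z * c z) z =
      σ.D i a z * b z * c z + a z * σ.D i b z * c z + a z * b z * σ.D i c z := by
  rw [D_mul σ o.op (ha.mul hb) hc i hz, D_mul σ o.op ha hb i hz]
  ring

omit [Fintype ι] in
theorem S1.m33 (o : S1 σ U) (ha : Sm U a) (hb : Sm U b) (hc : Sm U c) (k l : ι) (hz : z ∈ U) :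
    σ.D k (σ.D l fun z => a z * b z * c z) z =
      (σ.D k (σ.D l a) z * b z * c z + σ.D l a z * σ.D k b z * c z +
        σ.D l a z * b z * σ.D k c z) +
      (σ.D k a z * σ.D l b z * c z + a z * σ.D k (σ.D l b) z * c z +
        a z * σ.D l b z * σ.D k c z) +
      (σ.D k a z * b z * σ.D l c z + a z * σ.D k b z * σ.D l c z +
        a z * b z * σ.D k (σ.D l c) z) := by
  have e : ∀ w ∈ U, σ.D l (fun z => a z * b z * c z) w =
      σ.D l a w * b w * c w + a w * σ.D l b w * c w + a w * b w * σ.D l c w := fun w hw =>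
    o.m3 ha hb hc l hw
  have s1 := ((o.sD ha l).mul hb).mul hc
  have s2 := (ha.mul (o.sD hb l)).mul hc
  have s3 := (ha.mul hb).mul (o.sD hc l)
  rw [D_congr σ o.op e k hz, D_add σ o.op (s1.add s2) s3 k hz, D_add σ o.op s1 s2 k hz,
    o.m3 (o.sD ha l) hb hc k hz, o.m3 ha (o.sD hb l) hc k hz, o.m3 ha hb (o.sD hc l) k hz]

theorem S1.L (o : S1 σ U) (f : E → ℝ) (z : E) :
    σ.Λ f z = ∑ i, ∑ j, (σ.s i j z * σ.D i (σ.D j f) z + σ.D i (σ.s i j) z * σ.D j f z) := by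
  unfold Sl.Λ
  simp only [o.kz, zero_mul, add_zero]

theorem S1.LF (o : S1 σ U) (hW : Sm U W) (hz : z ∈ U) : σ.Λ (σ.F W) z =
    Q4 fun k l i j => σ.s k l z * (σ.D k (σ.D l (σ.s i j)) z * σ.D i W z * σ.D j W z +
      σ.D l (σ.s i j) z * σ.D k (σ.D i W) z * σ.D j W z +
      σ.D l (σ.s i j) z * σ.D i W z * σ.D k (σ.D j W) z +
      (σ.D k (σ.s i j) z * σ.D l (σ.D i W) z * σ.D j W z +
      σ.s i j z * σ.D k (σ.D l (σ.D i W)) z * σ.D j W z +
      σ.s i j z * σ.D l (σ.D i W) z * σ.D k (σ.D j W) z) +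
      (σ.D k (σ.s i j) z * σ.D i W z * σ.D l (σ.D j W) z +
      σ.s i j z * σ.D k (σ.D i W) z * σ.D l (σ.D j W) z +
      σ.s i j z * σ.D i W z * σ.D k (σ.D l (σ.D j W)) z)) +
      σ.D k (σ.s k l) z * (σ.D l (σ.s i j) z * σ.D i W z * σ.D j W z +
      σ.s i j z * σ.D l (σ.D i W) z * σ.D j W z +
      σ.s i j z * σ.D i W z * σ.D l (σ.D j W) z) := by
  rw [o.L]
  unfold Q4
  refine Finset.sum_congr rfl fun k _ => Finset.sum_congr rfl fun l _ => ?_
  have sF : ∀ i j, Sm U fun z => σ.s i j z * σ.D i W z * σ.D j W z := fun i j =>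
    ((o.ss i j).mul (o.sD hW i)).mul (o.sD hW j)
  have e1 : ∀ w ∈ U, σ.D l (σ.F W) w =
      ∑ i, ∑ j, σ.D l (fun z => σ.s i j z * σ.D i W z * σ.D j W z) w := by
    intro w hw
    have : σ.F W = fun z => ∑ i, ∑ j, σ.s i j z * σ.D i W z * σ.D j W z := rfl
    rw [this, D_sum σ o.op _ (fun i _ => Sm.sum _ fun j _ => sF i j) l hw]
    exact Finset.sum_congr rfl fun i _ => D_sum σ o.op _ (fun j _ => sF i j) l hw
  rw [D_congr σ o.op e1 k hz, D_sum σ o.op _ (fun i _ => Sm.sum _ fun j _ => o.sD (sF i j) l) k hz,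
    e1 z hz, Finset.mul_sum, Finset.mul_sum, ← Finset.sum_add_distrib]
  refine Finset.sum_congr rfl fun i _ => ?_
  rw [D_sum σ o.op _ (fun j _ => o.sD (sF i j) l) k hz, Finset.mul_sum, Finset.mul_sum,
    ← Finset.sum_add_distrib]
  refine Finset.sum_congr rfl fun j _ => ?_
  rw [o.m33 (o.ss i j) (o.sD hW i) (o.sD hW j) k l hz, o.m3 (o.ss i j) (o.sD hW i) (o.sD hW j) l hz]

theorem S1.GL (o : S1 σ U) (hW : Sm U W) (hz : z ∈ U) : σ.Γ W (σ.Λ W) z =
    Q4 fun k l i j => σ.s i j z * σ.D i W z * (σ.D j (σ.s k l) z * σ.D k (σ.D l W) z +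
      σ.s k l z * σ.D j (σ.D k (σ.D l W)) z +
      (σ.D j (σ.D k (σ.s k l)) z * σ.D l W z + σ.D k (σ.s k l) z * σ.D j (σ.D l W) z)) := by
  rw [← Q4_of]
  unfold Sl.Γ
  refine Finset.sum_congr rfl fun i _ => Finset.sum_congr rfl fun j _ => ?_
  have sA : ∀ k l, Sm U fun z => σ.s k l z * σ.D k (σ.D l W) z := fun k l =>
    (o.ss k l).mul (o.sD (o.sD hW l) k)
  have sB : ∀ k l, Sm U fun z => σ.D k (σ.s k l) z * σ.D l W z := fun k l =>
    (o.sD (o.ss k l) k).mul (o.sD hW l)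
  have sF : ∀ k l, Sm U fun z => σ.s k l z * σ.D k (σ.D l W) z + σ.D k (σ.s k l) z * σ.D l W z :=
    fun k l => (sA k l).add (sB k l)
  have e : σ.Λ W = fun z => ∑ k, ∑ l, (σ.s k l z * σ.D k (σ.D l W) z +
      σ.D k (σ.s k l) z * σ.D l W z) := funext fun z => o.L W z
  rw [e, D_sum σ o.op _ (fun k _ => Sm.sum _ fun l _ => sF k l) j hz, Finset.mul_sum]
  refine Finset.sum_congr rfl fun k _ => ?_
  rw [D_sum σ o.op _ (fun l _ => sF k l) j hz, Finset.mul_sum]
  refine Finset.sum_congr rfl fun l _ => ?_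
  rw [D_add σ o.op (sA k l) (sB k l) j hz, D_mul σ o.op (o.ss k l) (o.sD (o.sD hW l) k) j hz,
    D_mul σ o.op (o.sD (o.ss k l) k) (o.sD hW l) j hz]

/-- The Bochner formula in coordinates, for the scale `1`. -/
theorem S1.G2 (o : S1 σ U) (hW : Sm U W) (hz : z ∈ U) : H644.Ch.G2 σ W z =
    Q4 fun k l i j => σ.s k l z * σ.s i j z * σ.D i (σ.D l W) z * σ.D j (σ.D k W) z +
      1 / 2 * (σ.s k l z * σ.D k (σ.D l (σ.s i j)) z * σ.D i W z * σ.D j W z) +
      2 * (σ.s k l z * σ.D k (σ.s i j) z * σ.D i (σ.D l W) z * σ.D j W z) -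
      σ.s i j z * σ.D i W z * σ.D j (σ.s k l) z * σ.D k (σ.D l W) z +
      (1 / 2 * (σ.D k (σ.s k l) z * σ.D l (σ.s i j) z * σ.D i W z * σ.D j W z) -
      σ.s i j z * σ.D i W z * σ.D j (σ.D k (σ.s k l)) z * σ.D l W z) := by
  have hT : ∀ l i j, σ.D l (σ.s i j) z = σ.D l (σ.s j i) z := by
    intro l i j
    have : σ.s i j = σ.s j i := funext fun z => o.sy i j z
    rw [this]
  have hJ : ∀ j k l, σ.D j (σ.D k (σ.D l W)) z = σ.D k (σ.D l (σ.D j W)) z := by
    intro j k l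
    rw [o.cm (o.sD hW l) j k hz]
    exact D_congr σ o.op (fun w hw => o.cm hW j l hw) k hz
  have h := boch (fun i j => σ.s i j z) (fun l i j => σ.D l (σ.s i j) z)
    (fun k l i j => σ.D k (σ.D l (σ.s i j)) z) (fun i => σ.D i W z)
    (fun i j => σ.D i (σ.D j W) z) (fun j k l => σ.D j (σ.D k (σ.D l W)) z)
    (fun i j => o.sy i j z) hT (fun i j => o.cm hW i j hz) hJ
  unfold H644.Ch.G2
  rw [o.LF hW hz, o.GL hW hz]
  exact h

end pw

section inst

variable {n : ℕ} {O : Set (V n)} {U : Set (VV n)} {ε δ₁ δ₂ : ℝ} {s s₁ s₂ : MF n}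
  {W : VV n → ℝ} {z : VV n}

theorem s1x (hO : IsOpen O) (h : Nr O ε δ₁ δ₂ s) (hU : IsOpen U) :
    S1 (sx s) (U ∩ O ×ˢ univ) where
  op := hU.inter (hO.prod isOpen_univ)
  rs := contDiffOn_const
  et i z := etax i z
  kz i z := by simp [slx, pd]
  ss i j := sm_fst (O₂ := univ) inter_subset_right (h.sm i j)
  sy i j z := h.sy z.1 i j

theorem s1y (hO : IsOpen O) (h : Nr O ε δ₁ δ₂ s) (hU : IsOpen U) :
    S1 (sy s) (U ∩ univ ×ˢ O) where
  op := hU.inter (isOpen_univ.prod hO)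
  rs := contDiffOn_const
  et i z := etay i z
  kz i z := by simp [sly, pd]
  ss i j := sm_snd (O₁ := univ) inter_subset_right (h.sm i j)
  sy i j z := h.sy z.2 i j

theorem dsx (hO : IsOpen O) (h : Nr O ε δ₁ δ₂ s) (hz : z.1 ∈ O) (k i j : Fin n) :
    (sx s).D k ((sx s).s i j) z = pd k (fun y => s y i j) z.1 := by
  have e : (sx s).s i j = fun z => (fun y => s y i j) z.1 := rfl
  rw [e, Dx_fst (df_of hO (h.sm i j) hz), one_mul]

theorem dsy (hO : IsOpen O) (h : Nr O ε δ₁ δ₂ s) (hz : z.2 ∈ O) (k i j : Fin n) :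
    (sy s).D k ((sy s).s i j) z = pd k (fun y => s y i j) z.2 := by
  have e : (sy s).s i j = fun z => (fun y => s y i j) z.2 := rfl
  rw [e, Dy_snd (df_of hO (h.sm i j) hz), one_mul]

theorem ddsx (hO : IsOpen O) (h : Nr O ε δ₁ δ₂ s) (hz : z.1 ∈ O) (l k i j : Fin n) :
    (sx s).D l ((sx s).D k ((sx s).s i j)) z = pd l (pd k (fun y => s y i j)) z.1 := by
  have hU : IsOpen (O ×ˢ (univ : Set (V n))) := hO.prod isOpen_univ
  rw [D_congr (sx s) hU (g := fun w => pd k (fun y => s y i j) w.1)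
    (fun w hw => dsx hO h hw.1 k i j) l ⟨hz, mem_univ _⟩,
    Dx_fst (df_of hO (sm_pd hO (h.sm i j) k) hz), one_mul]

theorem ddsy (hO : IsOpen O) (h : Nr O ε δ₁ δ₂ s) (hz : z.2 ∈ O) (l k i j : Fin n) :
    (sy s).D l ((sy s).D k ((sy s).s i j)) z = pd l (pd k (fun y => s y i j)) z.2 := by
  have hU : IsOpen ((univ : Set (V n)) ×ˢ O) := isOpen_univ.prod hO
  rw [D_congr (sy s) hU (g := fun w => pd k (fun y => s y i j) w.2)
    (fun w hw => dsy hO h hw.2 k i j) l ⟨mem_univ _, hz⟩,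
    Dy_snd (df_of hO (sm_pd hO (h.sm i j) k) hz), one_mul]

theorem fd_le1 (W : VV n → ℝ) (z v : VV n) : |fderiv ℝ W z v| ≤ Nj 1 W z * ‖v‖ := by
  unfold Nj
  rw [norm_iteratedFDeriv_one]
  exact (fderiv ℝ W z).le_opNorm v

theorem fd_le2 (hU : IsOpen U) (hW : Sm U W) (hz : z ∈ U) (v w : VV n) :
    |fderiv ℝ (fun z => fderiv ℝ W z v) z w| ≤ Nj 2 W z * (‖v‖ * ‖w‖) := by
  rw [fd2 hU hW hz v w]
  have e : ‖fderiv ℝ (fderiv ℝ W) z‖ = Nj 2 W z := by
    unfold Nj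
    rw [← norm_iteratedFDeriv_fderiv, norm_iteratedFDeriv_one]
  have h1 := (fderiv ℝ (fderiv ℝ W) z w).le_opNorm v
  have h2 := (fderiv ℝ (fderiv ℝ W) z).le_opNorm w
  rw [e] at h2
  rw [Real.norm_eq_abs] at h1
  calc _ ≤ ‖fderiv ℝ (fderiv ℝ W) z w‖ * ‖v‖ := h1
    _ ≤ Nj 2 W z * ‖w‖ * ‖v‖ := by gcongr
    _ = _ := by ring

theorem n1 (i : Fin n) : ‖(Pi.single i 1 : V n)‖ = 1 := by
  rw [Pi.norm_single]; simp

theorem nx (i : Fin n) : ‖((Pi.single i 1, 0) : VV n)‖ = 1 := by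
  simp [Prod.norm_def, n1]

theorem ny (i : Fin n) : ‖((0, Pi.single i 1) : VV n)‖ = 1 := by
  simp [Prod.norm_def, n1]

theorem bx1 (W : VV n → ℝ) (z : VV n) (i : Fin n) : |dx i W z| ≤ Nj 1 W z := by
  have := fd_le1 W z (Pi.single i 1, 0)
  rwa [nx, mul_one] at this

theorem by1 (W : VV n → ℝ) (z : VV n) (i : Fin n) : |dy i W z| ≤ Nj 1 W z := by
  have := fd_le1 W z (0, Pi.single i 1)
  rwa [ny, mul_one] at this

theorem bxx (hU : IsOpen U) (hW : Sm U W) (hz : z ∈ U) (i j : Fin n) :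
    |dx i (dx j W) z| ≤ Nj 2 W z := by
  have := fd_le2 hU hW hz (Pi.single j 1, 0) (Pi.single i 1, 0)
  rwa [nx, nx, mul_one, mul_one] at this

theorem bxy (hU : IsOpen U) (hW : Sm U W) (hz : z ∈ U) (i j : Fin n) :
    |dx i (dy j W) z| ≤ Nj 2 W z := by
  have := fd_le2 hU hW hz (0, Pi.single j 1) (Pi.single i 1, 0)
  rwa [nx, ny, mul_one, mul_one] at this

theorem byy (hU : IsOpen U) (hW : Sm U W) (hz : z ∈ U) (i j : Fin n) :
    |dy i (dy j W) z| ≤ Nj 2 W z := by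
  have := fd_le2 hU hW hz (0, Pi.single j 1) (0, Pi.single i 1)
  rwa [ny, ny, mul_one, mul_one] at this

theorem nj0 (j : ℕ) (W : VV n → ℝ) (z : VV n) : 0 ≤ Nj j W z := norm_nonneg _

theorem Q4_le {F : Fin n → Fin n → Fin n → Fin n → ℝ} {c : ℝ} (h : ∀ k l i j, |F k l i j| ≤ c) :
    |Q4 F| ≤ n ^ 4 * c := by
  have := sum_le2 fun k l => sum_le2 (h k l)
  unfold Q4
  refine this.trans (le_of_eq (by ring))

theorem Q4_one (H : Fin n → Fin n → ℝ) :
    Q4 (fun k l i j => (1 : Matrix (Fin n) (Fin n) ℝ) k l * (1 : Matrix (Fin n) (Fin n) ℝ) i j *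
      H i l * H j k) = ∑ i, ∑ l, H i l ^ 2 := by
  unfold Q4
  have h1 : ∀ k l i : Fin n, (∑ j, (1 : Matrix (Fin n) (Fin n) ℝ) k l *
      (1 : Matrix (Fin n) (Fin n) ℝ) i j * H i l * H j k) =
      (1 : Matrix (Fin n) (Fin n) ℝ) k l * (H i l * H i k) := by
    intro k l i
    simp [Matrix.one_apply]
  simp only [h1, ← Finset.mul_sum]
  simp only [Matrix.one_apply, ite_mul, one_mul, zero_mul, Finset.sum_ite_eq, Finset.mem_univ,
    if_true]
  rw [Finset.sum_comm]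
  exact Finset.sum_congr rfl fun i _ => Finset.sum_congr rfl fun l _ => by ring

/-- The product of two entries. -/
theorem pr_le {a b a' b' ε : ℝ} (h1 : |a - a'| ≤ ε) (h2 : |b - b'| ≤ ε) (hb : |b| ≤ 2)
    (ha' : |a'| ≤ 1) : |a * b - a' * b'| ≤ 3 * ε := by
  have e : a * b - a' * b' = (a - a') * b + a' * (b - b') := by ring
  have h0 : 0 ≤ ε := (abs_nonneg _).trans h1
  rw [e]
  refine (abs_add_le _ _).trans ?_
  rw [abs_mul, abs_mul]
  have i1 : |a - a'| * |b| ≤ ε * 2 := by gcongr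
  have i2 : |a'| * |b - b'| ≤ 1 * ε := by gcongr
  linarith

theorem one_le1 (i j : Fin n) : |(1 : Matrix (Fin n) (Fin n) ℝ) i j| ≤ 1 := by
  rw [Matrix.one_apply]; split_ifs <;> simp

/-- The final estimate of `Γ₂`. -/
theorem g2_est {S : Fin n → Fin n → ℝ} {T : Fin n → Fin n → Fin n → ℝ}
    {R : Fin n → Fin n → Fin n → Fin n → ℝ} {w : Fin n → ℝ} {H : Fin n → Fin n → ℝ}
    {N₁ N₂ : ℝ} (hε : 0 ≤ ε) (hε1 : ε ≤ 1) (h1 : 0 ≤ δ₁) (h2 : 0 ≤ δ₂) (hN1 : 0 ≤ N₁)
    (hN2 : 0 ≤ N₂)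
    (hS : ∀ i j, |S i j - (1 : Matrix (Fin n) (Fin n) ℝ) i j| ≤ ε) (hT : ∀ k i j, |T k i j| ≤ δ₁)
    (hR : ∀ k l i j, |R k l i j| ≤ δ₂) (hw : ∀ i, |w i| ≤ N₁) (hH : ∀ i j, |H i j| ≤ N₂) :
    |Q4 (fun k l i j => S k l * S i j * H i l * H j k + 1 / 2 * (S k l * R k l i j * w i * w j) +
      2 * (S k l * T k i j * H i l * w j) - S i j * w i * T j k l * H k l +
      (1 / 2 * (T k k l * T l i j * w i * w j) - S i j * w i * R j k k l * w l)) -
      ∑ i, ∑ l, H i l ^ 2| ≤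
    6 * n ^ 4 * (ε * N₂ ^ 2 + δ₁ * N₁ * N₂ + (δ₂ + δ₁ ^ 2) * N₁ ^ 2) := by
  have hS2 : ∀ i j, |S i j| ≤ 2 := by
    intro i j
    have e : S i j = (S i j - (1 : Matrix (Fin n) (Fin n) ℝ) i j) +
      (1 : Matrix (Fin n) (Fin n) ℝ) i j := by ring
    rw [e]
    refine (abs_add_le _ _).trans ?_
    have := hS i j
    have := one_le1 i j
    linarith
  rw [← Q4_one H, ← Q4_sub]
  refine (Q4_le (c := 6 * (ε * N₂ ^ 2 + δ₁ * N₁ * N₂ + (δ₂ + δ₁ ^ 2) * N₁ ^ 2))
    fun k l i j => ?_).trans (le_of_eq (by ring))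
  have e : S k l * S i j * H i l * H j k + 1 / 2 * (S k l * R k l i j * w i * w j) +
      2 * (S k l * T k i j * H i l * w j) - S i j * w i * T j k l * H k l +
      (1 / 2 * (T k k l * T l i j * w i * w j) - S i j * w i * R j k k l * w l) -
      (1 : Matrix (Fin n) (Fin n) ℝ) k l * (1 : Matrix (Fin n) (Fin n) ℝ) i j * H i l * H j k =
      (S k l * S i j - (1 : Matrix (Fin n) (Fin n) ℝ) k l *
        (1 : Matrix (Fin n) (Fin n) ℝ) i j) * (H i l * H j k) +
      1 / 2 * (S k l * R k l i j * w i * w j) + 2 * (S k l * T k i j * H i l * w j) +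
      -(S i j * w i * T j k l * H k l) + (1 / 2 * (T k k l * T l i j * w i * w j) +
      -(S i j * w i * R j k k l * w l)) := by ring
  rw [e]
  have p1 : |(S k l * S i j - (1 : Matrix (Fin n) (Fin n) ℝ) k l *
        (1 : Matrix (Fin n) (Fin n) ℝ) i j) * (H i l * H j k)| ≤ 3 * ε * (N₂ * N₂) := by
    rw [abs_mul, abs_mul]
    have a1 := pr_le (hS k l) (hS i j) (hS2 i j) (one_le1 k l)
    have a2 := hH i l
    have a3 := hH j k
    gcongr
  have p2 : |1 / 2 * (S k l * R k l i j * w i * w j)| ≤ 1 / 2 * (2 * δ₂ * N₁ * N₁) := by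
    rw [abs_mul, abs_mul, abs_mul, abs_mul]
    have a1 := hS2 k l
    have a2 := hR k l i j
    have a3 := hw i
    have a4 := hw j
    have a5 : |(1 / 2 : ℝ)| = 1 / 2 := by norm_num
    rw [a5]
    gcongr
  have p3 : |2 * (S k l * T k i j * H i l * w j)| ≤ 2 * (2 * δ₁ * N₂ * N₁) := by
    rw [abs_mul, abs_mul, abs_mul, abs_mul]
    have a1 := hS2 k l
    have a2 := hT k i j
    have a3 := hH i l
    have a4 := hw j
    have a5 : |(2 : ℝ)| = 2 := by norm_num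
    rw [a5]
    gcongr
  have p4 : |-(S i j * w i * T j k l * H k l)| ≤ 2 * N₁ * δ₁ * N₂ := by
    rw [abs_neg, abs_mul, abs_mul, abs_mul]
    have a1 := hS2 i j
    have a2 := hT j k l
    have a3 := hw i
    have a4 := hH k l
    gcongr
  have p5 : |1 / 2 * (T k k l * T l i j * w i * w j)| ≤ 1 / 2 * (δ₁ * δ₁ * N₁ * N₁) := by
    rw [abs_mul, abs_mul, abs_mul, abs_mul]
    have a1 := hT k k l
    have a2 := hT l i j
    have a3 := hw i
    have a4 := hw j
    have a5 : |(1 / 2 : ℝ)| = 1 / 2 := by norm_num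
    rw [a5]
    gcongr
  have p6 : |-(S i j * w i * R j k k l * w l)| ≤ 2 * N₁ * δ₂ * N₁ := by
    rw [abs_neg, abs_mul, abs_mul, abs_mul]
    have a1 := hS2 i j
    have a2 := hR j k k l
    have a3 := hw i
    have a4 := hw l
    gcongr
  refine (abs_add_le _ _).trans ?_
  refine (add_le_add ((abs_add_le _ _).trans (add_le_add ((abs_add_le _ _).trans
    (add_le_add (abs_add_le _ _) le_rfl)) le_rfl)) (abs_add_le _ _)).trans ?_
  have q1 : 0 ≤ ε * N₂ ^ 2 := by positivity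
  have q2 : 0 ≤ δ₁ * N₁ * N₂ := by positivity
  have q3 : 0 ≤ δ₂ * N₁ ^ 2 := by positivity
  have q4 : 0 ≤ δ₁ ^ 2 * N₁ ^ 2 := by positivity
  nlinarith [p1, p2, p3, p4, p5, p6, q1, q2, q3, q4]

end inst

/-- Row `G2`. -/
theorem rowG2 (n : ℕ) : RowG2 n := by
  refine ⟨6 * n ^ 4, by positivity, ?_⟩
  intro O ε δ₁ δ₂ s hO h hε hε1 h1 h2 U W hU hW z hz
  constructor
  · intro hz1
    have o := s1x hO h hU
    have hW' : Sm (U ∩ O ×ˢ univ) W := hW.mono inter_subset_left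
    have hz' : z ∈ U ∩ O ×ˢ univ := ⟨hz, hz1, mem_univ _⟩
    rw [o.G2 hW' hz']
    have e1 : ∀ i, (sx s).D i W z = dx i W z := fun i => by rw [Dx_one]
    have e2 : ∀ i j, (sx s).D i ((sx s).D j W) z = dx i (dx j W) z := fun i j => by
      rw [Dx_one, Dx_one]
    simp only [e1, e2, ddsx hO h hz1]
    simp only [dsx hO h hz1]
    refine g2_est hε hε1 h1 h2 (nj0 1 W z) (nj0 2 W z) (fun i j => h.b0 _ hz1 i j)
      (fun k i j => h.b1 _ hz1 k i j) (fun k l i j => h.b2 _ hz1 k l i j) (fun i => bx1 W z i)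
      (fun i j => bxx hU hW hz i j)
  · intro hz1
    have o := s1y hO h hU
    have hW' : Sm (U ∩ univ ×ˢ O) W := hW.mono inter_subset_left
    have hz' : z ∈ U ∩ univ ×ˢ O := ⟨hz, mem_univ _, hz1⟩
    rw [o.G2 hW' hz']
    have e1 : ∀ i, (sy s).D i W z = dy i W z := fun i => by rw [Dy_one]
    have e2 : ∀ i j, (sy s).D i ((sy s).D j W) z = dy i (dy j W) z := fun i j => by
      rw [Dy_one, Dy_one]
    simp only [e1, e2, ddsy hO h hz1]
    simp only [dsy hO h hz1]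
    refine g2_est hε hε1 h1 h2 (nj0 1 W z) (nj0 2 W z) (fun i j => h.b0 _ hz1 i j)
      (fun k i j => h.b1 _ hz1 k i j) (fun k l i j => h.b2 _ hz1 k l i j) (fun i => by1 W z i)
      (fun i j => byy hU hW hz i j)

theorem Q4_one' {n : ℕ} (H : Fin n → Fin n → ℝ) :
    Q4 (fun k l i j => (1 : Matrix (Fin n) (Fin n) ℝ) k l * (1 : Matrix (Fin n) (Fin n) ℝ) i j *
      H i k * H j l) = ∑ i, ∑ k, H i k ^ 2 := by
  unfold Q4
  have h1 : ∀ k l i : Fin n, (∑ j, (1 : Matrix (Fin n) (Fin n) ℝ) k l *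
      (1 : Matrix (Fin n) (Fin n) ℝ) i j * H i k * H j l) =
      (1 : Matrix (Fin n) (Fin n) ℝ) k l * (H i k * H i l) := by
    intro k l i
    simp [Matrix.one_apply]
  simp only [h1, ← Finset.mul_sum]
  simp only [Matrix.one_apply, ite_mul, one_mul, zero_mul, Finset.sum_ite_eq, Finset.mem_univ,
    if_true]
  rw [Finset.sum_comm]
  exact Finset.sum_congr rfl fun i _ => Finset.sum_congr rfl fun l _ => by ring

/-- Row `M2`. -/
theorem rowM2 (n : ℕ) : RowM2 n := by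
  refine ⟨3 * n ^ 4, by positivity, ?_⟩
  intro O ε δ₁ δ₂ s₁ s₂ h1 h2 hε hε1 U W hU hW z hz hz1 hz2
  have e0 : M2 (sx s₁) (sy s₂) W W z = Q4 fun k l i j => s₂ z.2 k l * s₁ z.1 i j *
      dx i (dy k W) z * dx j (dy l W) z := by
    unfold M2 Q4 Sl.Γ
    refine Finset.sum_congr rfl fun k _ => Finset.sum_congr rfl fun l _ => ?_
    simp only [Finset.mul_sum]
    refine Finset.sum_congr rfl fun i _ => Finset.sum_congr rfl fun j _ => ?_
    rw [Dy_one, Dy_one, Dx_one, Dx_one]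
    have a1 : (sy s₂).s k l z = s₂ z.2 k l := rfl
    have a2 : (sx s₁).s i j z = s₁ z.1 i j := rfl
    rw [a1, a2]
    ring
  rw [e0, ← Q4_one' (fun i k => dx i (dy k W) z), ← Q4_sub]
  refine (Q4_le (c := 3 * (ε * Nj 2 W z ^ 2)) fun k l i j => ?_).trans (le_of_eq (by ring))
  have e : s₂ z.2 k l * s₁ z.1 i j * dx i (dy k W) z * dx j (dy l W) z -
      (1 : Matrix (Fin n) (Fin n) ℝ) k l * (1 : Matrix (Fin n) (Fin n) ℝ) i j *
      dx i (dy k W) z * dx j (dy l W) z =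
      (s₂ z.2 k l * s₁ z.1 i j - (1 : Matrix (Fin n) (Fin n) ℝ) k l *
        (1 : Matrix (Fin n) (Fin n) ℝ) i j) * (dx i (dy k W) z * dx j (dy l W) z) := by ring
  rw [e, abs_mul, abs_mul]
  have a1 := pr_le (h2.b0 _ hz2 k l) (h1.b0 _ hz1 i j) (h1.le2 hε1 hz1 i j) (one_le1 k l)
  have a2 := bxy hU hW hz i k
  have a3 := bxy hU hW hz j l
  have a4 := nj0 2 W z
  calc _ ≤ 3 * ε * (Nj 2 W z * Nj 2 W z) := by gcongr
    _ = _ := by ring

end Vale.Agent.P088.R2.H912.Cw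

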