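import Vale.Agent.P088.R2.H912.W.Ell
import Vale.Agent.P088.R2.H912.W.G2c
import Vale.Agent.P088.R2.H354.E.Pert

/-!
# P088, stage 3: the squares, curved slots against flat slots
-/

open MeasureTheory Set Filter
open scoped ContDiff Topology

noncomputable section

namespace Vale.Agent.P088.R2.H912.Cw

open Vale.Agent.P088.R2.H961.GW

variable {E ι : Type*} [NormedAddCommGroup E] [NormedSpace ℝ E] [Fintype ι] [DecidableEq ι]

/-- `δ_ij`. -/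
def dl (i j : ι) : ℝ := if i = j then 1 else 0

section sums

omit [DecidableEq ι] in
theorem cs2 {F G : ι → ι → ℝ} {c g : ℝ} (hF : ∀ i j, F i j ^ 2 ≤ c)
    (hG : ∑ i, ∑ j, G i j ^ 2 ≤ g) :
    (∑ i, ∑ j, F i j * G i j) ^ 2 ≤ (Fintype.card ι : ℝ) ^ 2 * c * g := by
  have h := Finset.sum_mul_sq_le_sq_mul_sq (Finset.univ : Finset (ι × ι))
    (fun p => F p.1 p.2) (fun p => G p.1 p.2)
  simp only [Fintype.sum_prod_type] at h
  have h1 : ∑ i, ∑ j, F i j ^ 2 ≤ (Fintype.card ι : ℝ) ^ 2 * c := by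
    calc ∑ i, ∑ j, F i j ^ 2 ≤ ∑ _i : ι, ∑ _j : ι, c :=
          Finset.sum_le_sum fun i _ => Finset.sum_le_sum fun j _ => hF i j
      _ = _ := by simp; ring
  have h2 : 0 ≤ ∑ i, ∑ j, F i j ^ 2 :=
    Finset.sum_nonneg fun _ _ => Finset.sum_nonneg fun _ _ => sq_nonneg _
  have h3 : 0 ≤ ∑ i, ∑ j, G i j ^ 2 :=
    Finset.sum_nonneg fun _ _ => Finset.sum_nonneg fun _ _ => sq_nonneg _
  exact h.trans (mul_le_mul h1 hG h3 (h2.trans h1))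

omit [DecidableEq ι] in
theorem abs_sum2 {F : ι → ι → ℝ} {c : ℝ} (hF : ∀ i j, |F i j| ≤ c) :
    |∑ i, ∑ j, F i j| ≤ (Fintype.card ι : ℝ) ^ 2 * c := by
  refine (Finset.abs_sum_le_sum_abs _ _).trans ?_
  refine (Finset.sum_le_sum fun i _ => Finset.abs_sum_le_sum_abs _ _).trans ?_
  refine (Finset.sum_le_sum fun i _ => Finset.sum_le_sum fun j _ => hF i j).trans ?_
  simp only [Finset.sum_const, Finset.card_univ, nsmul_eq_mul]
  exact le_of_eq (by ring)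

omit [Fintype ι] in
theorem dl_le (i j : ι) : |dl i j| ≤ 1 := by
  unfold dl; split_ifs <;> simp

theorem sum_dl (F : ι → ι → ℝ) : ∑ i, ∑ j, dl i j * F i j = ∑ i, F i i := by
  simp [dl]

end sums

/-- The operator of the curved slot (divergence form), written out. -/
def PN (σ τ : Sl E ι) (v W a : E → ℝ) (z : E) : ℝ :=
  (∑ i, ∑ j, (τ.s i j z * σ.D i (σ.D j a) z + σ.D i (τ.s i j) z * σ.D j a z)) + v z * a z +
    (2 * (∑ i, ∑ j, τ.s i j z * σ.D i W z * σ.D j a z) +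
      (∑ i, ∑ j, (τ.s i j z * σ.D i (σ.D j W) z + σ.D i (τ.s i j) z * σ.D j W z)) * a z) +
    (∑ i, ∑ j, τ.s i j z * σ.D i W z * σ.D j W z) * a z

/-- The closeness of the curved and the flat data at `z`. -/
structure Cl (σ τ : Sl E ι) (v W W₀ : E → ℝ) (ε B : ℝ) (z : E) : Prop where
  s0 : ∀ i j, |τ.s i j z - dl i j| ≤ ε
  s1 : ∀ k i j, |σ.D k (τ.s i j) z| ≤ ε
  v0 : |v z| ≤ ε
  w1 : ∀ i, |σ.D i W z - σ.D i W₀ z| ≤ ε
  w2 : ∀ i j, |σ.D i (σ.D j W) z - σ.D i (σ.D j W₀) z| ≤ ε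
  b1 : ∀ i, |σ.D i W₀ z| ≤ B
  b2 : ∀ i j, |σ.D i (σ.D j W₀) z| ≤ B

/-- The constant of the squares. -/
def cS (ι : Type*) [Fintype ι] (B : ℝ) : ℝ :=
  4 * ((Fintype.card ι : ℝ) ^ 2 + 37 * B ^ 2 * (Fintype.card ι : ℝ) ^ 3 +
    (1 + 12 * (Fintype.card ι : ℝ) ^ 2) ^ 2 * B ^ 4)

omit [DecidableEq ι] in
theorem cS_nonneg (B : ℝ) : 0 ≤ cS ι B := by unfold cS; positivity

private lemma pr_le' {s d x y ε B : ℝ} (h1 : |s - d| ≤ ε) (h2 : |x - y| ≤ ε) (hd : |d| ≤ 1)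
    (hy : |y| ≤ B) (hε : 0 ≤ ε) (hε1 : ε ≤ 1) (hB : 1 ≤ B) : |s * x - d * y| ≤ 3 * B * ε := by
  have e : s * x - d * y = (s - d) * ((x - y) + y) + d * (x - y) := by ring
  rw [e]
  refine (abs_add_le _ _).trans ?_
  rw [abs_mul, abs_mul]
  have h3 : |x - y + y| ≤ 1 + B := (abs_add_le _ _).trans (by linarith)
  have i1 : |s - d| * |x - y + y| ≤ ε * (1 + B) := by gcongr
  have i2 : |d| * |x - y| ≤ 1 * ε := by gcongr
  nlinarith

private lemma four_sq (x y z w : ℝ) :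
    (x + y + z + w) ^ 2 ≤ 4 * (x ^ 2 + y ^ 2 + z ^ 2 + w ^ 2) := by
  have e : 4 * (x ^ 2 + y ^ 2 + z ^ 2 + w ^ 2) - (x + y + z + w) ^ 2 = (x - y) ^ 2 +
      (x - z) ^ 2 + (x - w) ^ 2 + (y - z) ^ 2 + (y - w) ^ 2 + (z - w) ^ 2 := by ring
  have : 0 ≤ (x - y) ^ 2 + (x - z) ^ 2 + (x - w) ^ 2 + (y - z) ^ 2 + (y - w) ^ 2 +
    (z - w) ^ 2 := by positivity
  linarith

/-- **Pointwise.** -/
theorem PN_close {σ τ : Sl E ι} {v W W₀ a : E → ℝ} {ε B : ℝ} {z : E}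
    (h : Cl σ τ v W W₀ ε B z) (hε : 0 ≤ ε) (hε1 : ε ≤ 1) (hB : 1 ≤ B) :
    (PN σ τ v W a z - PF σ W₀ (fun z => L0 σ W₀ z + q1 σ W₀ z) a z) ^ 2 ≤
      cS ι B * ε ^ 2 * (q2 σ a z + q1 σ a z + a z ^ 2) := by
  set n : ℝ := (Fintype.card ι : ℝ) with hn
  have hn0 : 0 ≤ n := by positivity
  have q0 := q1_nonneg σ a z
  have q0' := q2_nonneg σ a z
  have hBB : B * ε ≤ B ^ 2 * ε :=
    mul_le_mul_of_nonneg_right (le_self_pow₀ hB two_ne_zero) hε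
  set T1 := ∑ i, ∑ j, (τ.s i j z - dl i j) * σ.D i (σ.D j a) z with hT1
  set T2 := ∑ i, ∑ j, σ.D i (τ.s i j) z * σ.D j a z with hT2
  set T3 := ∑ i, ∑ j, (τ.s i j z * σ.D i W z - dl i j * σ.D i W₀ z) * σ.D j a z with hT3
  set A1 := ∑ i, ∑ j, (τ.s i j z * σ.D i (σ.D j W) z - dl i j * σ.D i (σ.D j W₀) z) with hA1
  set A2 := ∑ i, ∑ j, σ.D i (τ.s i j) z * σ.D j W z with hA2
  set A3 := ∑ i, ∑ j, (τ.s i j z * σ.D i W z * σ.D j W z -
    dl i j * σ.D i W₀ z * σ.D j W₀ z) with hA3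
  have key : PN σ τ v W a z - PF σ W₀ (fun z => L0 σ W₀ z + q1 σ W₀ z) a z =
      T1 + T2 + 2 * T3 + (v z + A1 + A2 + A3) * a z := by
    have f1 : L0 σ a z = ∑ i, ∑ j, dl i j * σ.D i (σ.D j a) z := by
      rw [sum_dl]; rfl
    have f2 : pq σ W₀ a z = ∑ i, ∑ j, dl i j * (σ.D i W₀ z * σ.D j a z) := by
      rw [sum_dl]; rfl
    have f3 : L0 σ W₀ z = ∑ i, ∑ j, dl i j * σ.D i (σ.D j W₀) z := by
      rw [sum_dl]; rfl
    have f4 : q1 σ W₀ z = ∑ i, ∑ j, dl i j * (σ.D i W₀ z * σ.D j W₀ z) := by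
      rw [sum_dl]
      exact Finset.sum_congr rfl fun i _ => sq _
    unfold PN PF
    simp only []
    rw [f1, f2, f3, f4, hT1, hT2, hT3, hA1, hA2, hA3]
    simp only [sub_mul, Finset.sum_add_distrib, Finset.sum_sub_distrib, mul_assoc]
    ring
  have b0 : ∀ i, |σ.D i W z| ≤ 2 * B := fun i => by
    have e : σ.D i W z = (σ.D i W z - σ.D i W₀ z) + σ.D i W₀ z := by ring
    rw [e]
    refine (abs_add_le _ _).trans ?_
    have := h.w1 i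
    have := h.b1 i
    linarith
  have sq_of : ∀ {x c : ℝ}, |x| ≤ c → x ^ 2 ≤ c ^ 2 := fun {x c} hx => by
    rw [← sq_abs]
    exact pow_le_pow_left₀ (abs_nonneg _) hx 2
  have g1 : ∑ i, ∑ j, σ.D i (σ.D j a) z ^ 2 ≤ q2 σ a z := le_rfl
  have g2 : ∑ _i : ι, ∑ j, σ.D j a z ^ 2 ≤ n * q1 σ a z := by
    rw [Finset.sum_const, Finset.card_univ, nsmul_eq_mul]
    exact le_rfl
  have c1 : T1 ^ 2 ≤ n ^ 2 * ε ^ 2 * q2 σ a z := cs2 (fun i j => sq_of (h.s0 i j)) g1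
  have c2 : T2 ^ 2 ≤ n ^ 2 * ε ^ 2 * (n * q1 σ a z) := cs2 (fun i j => sq_of (h.s1 i i j)) g2
  have c3 : T3 ^ 2 ≤ n ^ 2 * (3 * B * ε) ^ 2 * (n * q1 σ a z) :=
    cs2 (fun i j => sq_of (pr_le' (h.s0 i j) (h.w1 i) (dl_le i j) (h.b1 i) hε hε1 hB)) g2
  have d1 : |A1| ≤ n ^ 2 * (3 * B * ε) :=
    abs_sum2 fun i j => pr_le' (h.s0 i j) (h.w2 i j) (dl_le i j) (h.b2 i j) hε hε1 hB
  have d2 : |A2| ≤ n ^ 2 * (2 * B * ε) := abs_sum2 fun i j => by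
    rw [abs_mul]
    have h1 := h.s1 i i j
    have h2 := b0 j
    calc |σ.D i (τ.s i j) z| * |σ.D j W z| ≤ ε * (2 * B) := by gcongr
      _ = 2 * B * ε := by ring
  have d3 : |A3| ≤ n ^ 2 * (7 * B ^ 2 * ε) := abs_sum2 fun i j => by
    have e : τ.s i j z * σ.D i W z * σ.D j W z - dl i j * σ.D i W₀ z * σ.D j W₀ z =
        (τ.s i j z * σ.D i W z - dl i j * σ.D i W₀ z) * σ.D j W z +
          dl i j * σ.D i W₀ z * (σ.D j W z - σ.D j W₀ z) := by ring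
    rw [e]
    refine (abs_add_le _ _).trans ?_
    rw [abs_mul, abs_mul, abs_mul]
    have h1 := pr_le' (h.s0 i j) (h.w1 i) (dl_le i j) (h.b1 i) hε hε1 hB
    have h2 := b0 j
    have h3 := dl_le i j
    have h4 := h.b1 i
    have h5 := h.w1 j
    have i1 : |τ.s i j z * σ.D i W z - dl i j * σ.D i W₀ z| * |σ.D j W z| ≤
        3 * B * ε * (2 * B) := by gcongr
    have i2 : |dl i j| * |σ.D i W₀ z| * |σ.D j W z - σ.D j W₀ z| ≤ 1 * B * ε := by gcongr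
    linarith
  have d4 : |v z + A1 + A2 + A3| ≤ (1 + 12 * n ^ 2) * B ^ 2 * ε := by
    have e1 := abs_add_le (v z + A1 + A2) A3
    have e2 := abs_add_le (v z + A1) A2
    have e3 := abs_add_le (v z) A1
    have e4 := h.v0
    have e5 : ε ≤ B ^ 2 * ε := le_mul_of_one_le_left hε (one_le_pow₀ hB)
    have e7 := mul_le_mul_of_nonneg_left hBB (show 0 ≤ n ^ 2 by positivity)
    linarith
  have d5 : ((v z + A1 + A2 + A3) * a z) ^ 2 ≤ ((1 + 12 * n ^ 2) * B ^ 2 * ε) ^ 2 * a z ^ 2 := by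
    rw [mul_pow]
    exact mul_le_mul_of_nonneg_right (sq_of d4) (sq_nonneg _)
  rw [key]
  set T4 := (v z + A1 + A2 + A3) * a z
  refine (four_sq T1 T2 (2 * T3) T4).trans ?_
  have r1 : 0 ≤ n ^ 2 * ε ^ 2 * q1 σ a z := by positivity
  have r2 : 0 ≤ n ^ 2 * ε ^ 2 * a z ^ 2 := by positivity
  have r3 : 0 ≤ B ^ 2 * n ^ 3 * ε ^ 2 * q2 σ a z := by positivity
  have r4 : 0 ≤ B ^ 2 * n ^ 3 * ε ^ 2 * a z ^ 2 := by positivity
  have r5 : 0 ≤ (1 + 12 * n ^ 2) ^ 2 * B ^ 4 * ε ^ 2 * q2 σ a z := by positivity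
  have r6 : 0 ≤ (1 + 12 * n ^ 2) ^ 2 * B ^ 4 * ε ^ 2 * q1 σ a z := by positivity
  have r7 : n ^ 3 * ε ^ 2 * q1 σ a z ≤ B ^ 2 * (n ^ 3 * ε ^ 2 * q1 σ a z) :=
    le_mul_of_one_le_left (by positivity) (one_le_pow₀ hB)
  have e : cS ι B = 4 * (n ^ 2 + 37 * B ^ 2 * n ^ 3 + (1 + 12 * n ^ 2) ^ 2 * B ^ 4) := rfl
  rw [e]
  linarith [c1, c2, c3, d5, r1, r2, r3, r4, r5, r6, r7]

section fin

variable [MeasureSpace E] [FiniteDimensional ℝ E] [BorelSpace E]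
  [(volume : Measure E).IsAddHaarMeasure]

variable {σ τ : Sl E ι} {U : Set E} {θ : E → ℝ} {v W W₀ χ om : E → ℝ} {ε B : ℝ}

/-- The constant of the transfer of the squares. -/
def cT (ι : Type*) [Fintype ι] (B : ℝ) : ℝ :=
  1 + 25602 * cS ι B * ((1 + 2 * (Fintype.card ι : ℝ)) * B ^ 2) ^ 4

theorem sq_main (o0 : σ.Ok U θ) (fl : Flt σ U) (os : τ.Ok U θ) (hc : Cu σ U χ om)
    (hv : Sm U v) (hW : Sm U W) (hW₀ : Sm U W₀) (hε : 0 < ε) (hε1 : ε ≤ 1) (hB : 1 ≤ B)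
    (hP : ∀ f, ∀ z ∈ U, τ.P v W f z = PN σ τ v W f z)
    (hP0 : ∀ f, ∀ z ∈ U, σ.P (fun _ => 0) W₀ f z =
      PF σ W₀ (fun z => L0 σ W₀ z + q1 σ W₀ z) f z)
    (hcl : ∀ z ∈ U, χ z ≠ 0 → Cl σ τ v W W₀ ε B z) (f : E → ℝ) (hf : Te U f) :
    |In U θ (fun z => χ z ^ 2 * τ.P v W f z ^ 2) -
      In U θ (fun z => χ z ^ 2 * σ.P (fun _ => 0) W₀ f z ^ 2)| ≤
      cT ι B * ε * (In U θ (fun z => χ z ^ 2 * σ.P (fun _ => 0) W₀ f z ^ 2) +
        In U θ (fun z => om z * f z ^ 2)) := by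
  have hU := o0.op
  set n : ℝ := (Fintype.card ι : ℝ) with hn
  have hn0 : 0 ≤ n := by positivity
  have hR : Sm U fun z => L0 σ W₀ z + q1 σ W₀ z := (sL0 o0 hW₀).add (sq1 o0 hW₀)
  have e0 : In U θ (fun z => χ z ^ 2 * σ.P (fun _ => 0) W₀ f z ^ 2) =
      In U θ (fun z => χ z ^ 2 * PF σ W₀ (fun z => L0 σ W₀ z + q1 σ W₀ z) f z ^ 2) :=
    In_congr hU fun z hz => by rw [hP0 f z hz]
  rw [e0]
  have hB2 : B ^ 2 ≤ (1 + 2 * n) * B ^ 2 := le_mul_of_one_le_left (by positivity) (by linarith)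
  have hB1 : 1 ≤ B ^ 2 := one_le_pow₀ hB
  have hB' : 1 ≤ (1 + 2 * n) * B ^ 2 := hB1.trans hB2
  have hq : ∀ z ∈ U, χ z ≠ 0 → q1 σ W₀ z ≤ n * B ^ 2 := by
    intro z hz h0
    have h := hcl z hz h0
    calc q1 σ W₀ z ≤ ∑ _i : ι, B ^ 2 := Finset.sum_le_sum fun i _ => by
          rw [← sq_abs]
          exact pow_le_pow_left₀ (abs_nonneg _) (h.b1 i) 2
      _ = n * B ^ 2 := by simp [hn]
  have hBB : B ≤ B ^ 2 := le_self_pow₀ hB two_ne_zero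
  refine pert o0 fl hc hW₀ hR hf hB' ?_ ?_ (os.tP hv hW hf) (cS_nonneg B) hε hε1 ?_
  · intro z hz h0
    refine (hq z hz h0).trans ?_
    have h1 : n * B ^ 2 ≤ (1 + 2 * n) * B ^ 2 := by
      refine mul_le_mul_of_nonneg_right (by linarith) (by positivity)
    have h2 : (1 + 2 * n) * B ^ 2 ≤ ((1 + 2 * n) * B ^ 2) ^ 2 := le_self_pow₀ hB' two_ne_zero
    exact h1.trans h2
  · intro z hz h0
    have h := hcl z hz h0
    have h1 : |L0 σ W₀ z| ≤ n * B := by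
      refine (Finset.abs_sum_le_sum_abs _ _).trans ?_
      refine (Finset.sum_le_sum fun i _ => h.b2 i i).trans ?_
      simp [hn]
    have h2 := hq z hz h0
    have h3 := q1_nonneg σ W₀ z
    refine (abs_add_le _ _).trans ?_
    rw [abs_of_nonneg h3]
    have h4 : n * B ≤ n * B ^ 2 := mul_le_mul_of_nonneg_left hBB hn0
    linarith
  · intro z hz h0
    rw [hP f z hz]
    exact PN_close (hcl z hz h0) hε.le hε1 hB

omit [MeasureSpace E] [FiniteDimensional ℝ E] [BorelSpace E]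
  [(volume : Measure E).IsAddHaarMeasure] [DecidableEq ι] in
/-- The operator of a curved slot, written out. -/
theorem P_PN (hD : ∀ i f, τ.D i f = σ.D i f) (hk : ∀ i z, τ.k i z = 0) (f : E → ℝ) (z : E) :
    τ.P v W f z = PN σ τ v W f z := by
  unfold Sl.P Sl.K Sl.F Sl.Λ Sl.Γ PN
  simp only [hD, hk, zero_mul, add_zero]

omit [MeasureSpace E] [FiniteDimensional ℝ E] [BorelSpace E]
  [(volume : Measure E).IsAddHaarMeasure] in
/-- The operator of a flat slot. -/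
theorem P_PF (hs : ∀ i j z, σ.s i j z = dl i j) (hk : ∀ i z, σ.k i z = 0) (f : E → ℝ) (z : E) :
    σ.P (fun _ => 0) W₀ f z = PF σ W₀ (fun z => L0 σ W₀ z + q1 σ W₀ z) f z := by
  have h0 : ∀ i j k, σ.D i (σ.s j k) z = 0 := by
    intro i j k
    have : σ.s j k = fun _ => dl j k := funext fun z => hs j k z
    rw [this, D_const]
  have e1 : ∀ g : E → ℝ, σ.Λ g z = L0 σ g z := by
    intro g
    unfold Sl.Λ
    simp only [h0, hk, hs, zero_mul, add_zero]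
    exact sum_dl _
  have e2 : ∀ g h : E → ℝ, σ.Γ g h z = pq σ g h z := by
    intro g h
    unfold Sl.Γ
    simp only [hs, mul_assoc]
    exact sum_dl _
  have e3 : pq σ W₀ W₀ z = q1 σ W₀ z := Finset.sum_congr rfl fun i _ => (sq _).symm
  unfold Sl.P Sl.K Sl.F PF
  rw [e1, e1, e2, e2, e3]
  ring

/-- **The squares of a curved slot against a flat slot**, in the form `SqC`. -/
theorem sqC_of (o0 : σ.Ok U θ) (fl : Flt σ U) (os : τ.Ok U θ) (hc : Cu σ U χ om)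
    (hv : Sm U v) (hW : Sm U W) (hW₀ : Sm U W₀) (hε : 0 < ε) (hε1 : ε ≤ 1) (hB : 1 ≤ B)
    (hD : ∀ i f, τ.D i f = σ.D i f) (hk : ∀ i z, τ.k i z = 0)
    (hs : ∀ i j z, σ.s i j z = dl i j)
    (hcl : ∀ z ∈ U, χ z ≠ 0 → Cl σ τ v W W₀ ε B z) :
    H354.E.SqC τ σ U θ v (fun _ => 0) W W₀ χ om (cT ι B * ε) := by
  intro f hf
  exact sq_main o0 fl os hc hv hW hW₀ hε hε1 hB (fun f z _ => P_PN hD hk f z)
    (fun f z _ => P_PF hs fl.k0 f z) hcl f hf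

end fin

section inst

open Vale.Agent.P088.LR Vale.Agent.P088.HY Vale.Agent.P088.R2.H644.Ch
open Vale.Agent.P088.R2.H464.Cu (sx sy)

variable {n : ℕ} {s : MF n} {U : Set (VV n)} {v W W₀ χ om : VV n → ℝ} {ε B : ℝ}

theorem flt_x (hU : IsOpen U) : Flt (fx n) U where
  k0 i z := fx_k i z
  cm f hf i j z hz := by
    simp only [fx_D]
    exact dx_dx_comm hU hf i j hz

theorem flt_y (hU : IsOpen U) : Flt (fy n) U where
  k0 i z := fy_k i z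
  cm f hf i j z hz := by
    simp only [fy_D]
    exact dy_dy_comm hU hf i j hz

/-- The squares of the first slot. -/
theorem sqC_x (hU : IsOpen U) (os : (sx s).Ok U fun _ => 1) (hc : Cu (fx n) U χ om)
    (hv : Sm U v) (hW : Sm U W) (hW₀ : Sm U W₀) (hε : 0 < ε) (hε1 : ε ≤ 1) (hB : 1 ≤ B)
    (hcl : ∀ z ∈ U, χ z ≠ 0 → Cl (fx n) (sx s) v W W₀ ε B z) :
    H354.E.SqC (sx s) (fx n) U (fun _ => 1) v (fun _ => 0) W W₀ χ om (cT (Fin n) B * ε) := by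
  have hm := haar_VV (n := n)
  exact sqC_of (ok_fx hU) (flt_x hU) os hc hv hW hW₀ hε hε1 hB
    (fun i f => by rw [fx_D, Dx_one]) (fun i z => by simp [slx, pd])
    (fun i j z => fx_s i j z) hcl

/-- The squares of the second slot. -/
theorem sqC_y (hU : IsOpen U) (os : (sy s).Ok U fun _ => 1) (hc : Cu (fy n) U χ om)
    (hv : Sm U v) (hW : Sm U W) (hW₀ : Sm U W₀) (hε : 0 < ε) (hε1 : ε ≤ 1) (hB : 1 ≤ B)
    (hcl : ∀ z ∈ U, χ z ≠ 0 → Cl (fy n) (sy s) v W W₀ ε B z) :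
    H354.E.SqC (sy s) (fy n) U (fun _ => 1) v (fun _ => 0) W W₀ χ om (cT (Fin n) B * ε) := by
  have hm := haar_VV (n := n)
  exact sqC_of (ok_fy hU) (flt_y hU) os hc hv hW hW₀ hε hε1 hB
    (fun i f => by rw [fy_D, Dy_one]) (fun i z => by simp [sly, pd])
    (fun i j z => fy_s i j z) hcl

end inst

end Vale.Agent.P088.R2.H912.Cw
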