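import Vale.Agent.P088.R2.H644.W.Flat

/-!
# P088, stage 3: local elliptic estimate in a flat slot, no cost of first order

For `P a = Δ a + 2 DW · D a + R a` in one flat slot, a cut-off `χ` and a weight `om` with
`χ² ≤ om`, `|Dχ|² ≤ om`, `|D²χ|² ≤ om`, `|Dχ|⁴ ≤ χ² om`:
`∫ χ² (|D²a|² + |Da|²) ≤ C (∫ χ² (P a)² + ∫ om a²)`.
-/

open MeasureTheory Set Filter
open scoped ContDiff Topology

noncomputable section

namespace Vale.Agent.P088.R2.H912.Cw

open Vale.Agent.P088.R2.H961.GW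

variable {E ι : Type*} [NormedAddCommGroup E] [NormedSpace ℝ E] [Fintype ι]

/-- The flat Laplacian of a slot. -/
def L0 (σ : Sl E ι) (a : E → ℝ) (z : E) : ℝ := ∑ i, σ.D i (σ.D i a) z

/-- `|D a|²`. -/
def q1 (σ : Sl E ι) (a : E → ℝ) (z : E) : ℝ := ∑ i, σ.D i a z ^ 2

/-- `|D² a|²`. -/
def q2 (σ : Sl E ι) (a : E → ℝ) (z : E) : ℝ := ∑ j, ∑ i, σ.D j (σ.D i a) z ^ 2

/-- `D a · D b`. -/
def pq (σ : Sl E ι) (a b : E → ℝ) (z : E) : ℝ := ∑ i, σ.D i a z * σ.D i b z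

/-- The slot is flat: the derivations commute and there is no drift. -/
structure Flt (σ : Sl E ι) (U : Set E) : Prop where
  k0 : ∀ i z, σ.k i z = 0
  cm : ∀ f, Sm U f → ∀ i j, ∀ z ∈ U, σ.D i (σ.D j f) z = σ.D j (σ.D i f) z

theorem q1_nonneg (σ : Sl E ι) (a : E → ℝ) (z : E) : 0 ≤ q1 σ a z :=
  Finset.sum_nonneg fun _ _ => sq_nonneg _

theorem q2_nonneg (σ : Sl E ι) (a : E → ℝ) (z : E) : 0 ≤ q2 σ a z :=
  Finset.sum_nonneg fun _ _ => Finset.sum_nonneg fun _ _ => sq_nonneg _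

theorem pq_sq (σ : Sl E ι) (a b : E → ℝ) (z : E) : pq σ a b z ^ 2 ≤ q1 σ a z * q1 σ b z := by
  unfold pq q1
  exact Finset.sum_mul_sq_le_sq_mul_sq _ _ _

section tst

variable {σ : Sl E ι} {U : Set E} {θ : E → ℝ} {a b f χ W : E → ℝ}

theorem sL0 (ok : σ.Ok U θ) (ha : Sm U a) : Sm U (L0 σ a) :=
  Sm.sum _ fun i _ => ok.sD (ok.sD ha i) i

theorem tL0 (ok : σ.Ok U θ) (ha : Te U a) : Te U (L0 σ a) :=
  Te.sum ok.op _ fun i _ => ok.tD (ok.tD ha i) i

theorem sq1 (ok : σ.Ok U θ) (ha : Sm U a) : Sm U (q1 σ a) :=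
  Sm.sum _ fun i _ => (ok.sD ha i).pow 2

theorem tq1 (ok : σ.Ok U θ) (ha : Te U a) : Te U (q1 σ a) :=
  Te.sum ok.op _ fun i _ => (ok.tD ha i).sq ok.op

theorem sq2 (ok : σ.Ok U θ) (ha : Sm U a) : Sm U (q2 σ a) :=
  Sm.sum _ fun j _ => Sm.sum _ fun i _ => (ok.sD (ok.sD ha i) j).pow 2

theorem tq2 (ok : σ.Ok U θ) (ha : Te U a) : Te U (q2 σ a) :=
  Te.sum ok.op _ fun j _ => Te.sum ok.op _ fun i _ => (ok.tD (ok.tD ha i) j).sq ok.op

theorem spq (ok : σ.Ok U θ) (ha : Sm U a) (hb : Sm U b) : Sm U (pq σ a b) :=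
  Sm.sum _ fun i _ => (ok.sD ha i).mul (ok.sD hb i)

theorem tpq (ok : σ.Ok U θ) (ha : Sm U a) (hb : Te U b) : Te U (pq σ a b) :=
  Te.sum ok.op _ fun i _ => (ok.tD hb i).mul_left ok.op (ok.sD ha i)

/-- The second derivatives against the Laplacian. -/
theorem hes_id (ok : σ.Ok U θ) (fl : Flt σ U) (hχ : Sm U χ) (ha : Sm U a) {z : E} (hz : z ∈ U) :
    (∑ j, σ.D j (fun z => χ z ^ 2 * ∑ i, σ.D i a z * σ.D j (σ.D i a) z) z) -
      (∑ i, σ.D i (fun z => χ z ^ 2 * (σ.D i a z * L0 σ a z)) z) =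
    (χ z ^ 2 * q2 σ a z + 2 * (χ z * ∑ j, ∑ i, σ.D j χ z * σ.D i a z * σ.D j (σ.D i a) z)) -
      (χ z ^ 2 * L0 σ a z ^ 2 + 2 * (χ z * L0 σ a z * pq σ χ a z)) := by
  have hU := ok.op
  have e1 : ∀ j, σ.D j (fun z => χ z ^ 2 * ∑ i, σ.D i a z * σ.D j (σ.D i a) z) z =
      2 * χ z * σ.D j χ z * (∑ i, σ.D i a z * σ.D j (σ.D i a) z) + χ z ^ 2 *
        ∑ i, (σ.D j (σ.D i a) z * σ.D j (σ.D i a) z +
          σ.D i a z * σ.D j (σ.D j (σ.D i a)) z) := by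
    intro j
    have s1 : ∀ i, Sm U fun z => σ.D i a z * σ.D j (σ.D i a) z := fun i =>
      (ok.sD ha i).mul (ok.sD (ok.sD ha i) j)
    rw [D_mul σ hU (hχ.pow 2) (Sm.sum _ fun i _ => s1 i) j hz, D_sq σ hU hχ j hz,
      D_sum σ hU _ (fun i _ => s1 i) j hz]
    congr 2
    exact Finset.sum_congr rfl fun i _ => D_mul σ hU (ok.sD ha i) (ok.sD (ok.sD ha i) j) j hz
  have e2 : ∀ i, σ.D i (fun z => χ z ^ 2 * (σ.D i a z * L0 σ a z)) z =
      2 * χ z * σ.D i χ z * (σ.D i a z * L0 σ a z) + χ z ^ 2 *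
        (σ.D i (σ.D i a) z * L0 σ a z + σ.D i a z * ∑ j, σ.D j (σ.D j (σ.D i a)) z) := by
    intro i
    rw [D_mul σ hU (hχ.pow 2) ((ok.sD ha i).mul (sL0 ok ha)) i hz, D_sq σ hU hχ i hz,
      D_mul σ hU (ok.sD ha i) (sL0 ok ha) i hz]
    have e3 : σ.D i (L0 σ a) z = ∑ j, σ.D j (σ.D j (σ.D i a)) z := by
      have : L0 σ a = fun z => ∑ j, σ.D j (σ.D j a) z := rfl
      rw [this, D_sum σ hU _ (fun j _ => ok.sD (ok.sD ha j) j) i hz]
      refine Finset.sum_congr rfl fun j _ => ?_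
      rw [fl.cm _ (ok.sD ha j) i j z hz]
      exact D_congr σ hU (fun w hw => fl.cm a ha i j w hw) j hz
    rw [e3]
  simp only [e1, e2]
  have f1 : ∑ j, (2 * χ z * σ.D j χ z * (∑ i, σ.D i a z * σ.D j (σ.D i a) z) + χ z ^ 2 *
        ∑ i, (σ.D j (σ.D i a) z * σ.D j (σ.D i a) z + σ.D i a z * σ.D j (σ.D j (σ.D i a)) z)) =
      2 * (χ z * ∑ j, ∑ i, σ.D j χ z * σ.D i a z * σ.D j (σ.D i a) z) + χ z ^ 2 * q2 σ a z +
        χ z ^ 2 * ∑ j, ∑ i, σ.D i a z * σ.D j (σ.D j (σ.D i a)) z := by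
    unfold q2
    simp only [Finset.mul_sum, ← Finset.sum_add_distrib]
    exact Finset.sum_congr rfl fun j _ => Finset.sum_congr rfl fun i _ => by ring
  have f2 : ∑ i, (2 * χ z * σ.D i χ z * (σ.D i a z * L0 σ a z) + χ z ^ 2 *
        (σ.D i (σ.D i a) z * L0 σ a z + σ.D i a z * ∑ j, σ.D j (σ.D j (σ.D i a)) z)) =
      2 * (χ z * L0 σ a z * pq σ χ a z) + χ z ^ 2 * L0 σ a z ^ 2 +
        χ z ^ 2 * ∑ i, ∑ j, σ.D i a z * σ.D j (σ.D j (σ.D i a)) z := by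
    have g1 : L0 σ a z ^ 2 = ∑ i, σ.D i (σ.D i a) z * L0 σ a z := by
      rw [← Finset.sum_mul, sq]; rfl
    rw [g1]
    unfold pq
    obtain ⟨T, hT⟩ : ∃ T : ι → ℝ, ∀ i, T i = ∑ j, σ.D j (σ.D j (σ.D i a)) z :=
      ⟨_, fun _ => rfl⟩
    simp only [← Finset.mul_sum (Finset.univ), ← hT]
    simp only [Finset.mul_sum, ← Finset.sum_add_distrib]
    exact Finset.sum_congr rfl fun i _ => by ring
  rw [f1, f2, Finset.sum_comm (f := fun i j => σ.D i a z * σ.D j (σ.D j (σ.D i a)) z)]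
  ring

end tst

variable [MeasureSpace E] [FiniteDimensional ℝ E] [BorelSpace E]
  [(volume : Measure E).IsAddHaarMeasure]

section ell

variable {σ : Sl E ι} {U : Set E} {θ : E → ℝ} {a b f g h χ om W R P : E → ℝ}

/-- The divergence of a test field has the integral `0`. -/
theorem div0 (ok : σ.Ok U θ) (fl : Flt σ U) {F : ι → E → ℝ} (hF : ∀ i, Te U (F i)) :
    In U θ (fun z => ∑ i, σ.D i (F i) z) = 0 := by
  rw [In_sum ok.op ok.ts _ fun i _ => ok.tD (hF i) i]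
  refine Finset.sum_eq_zero fun i _ => ?_
  have h := ibp ok (hF i) i
  simp only [fl.k0, zero_mul, add_zero] at h
  exact h

omit [FiniteDimensional ℝ E] in
/-- A continuous function times a test function is integrable. -/
theorem ct_int (hU : IsOpen U) (hθ : Sm U θ) {c : E → ℝ} (hc : ContinuousOn c U) (hf : Te U f) :
    IntegrableOn (fun z => θ z * (c z * f z)) U := by
  have hK := hf.cpt
  have h1 : IntegrableOn (fun z => θ z * (c z * f z)) (tsupport f) := by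
    refine ContinuousOn.integrableOn_compact hK ?_
    exact (hθ.continuousOn.mono hf.2.2).mul ((hc.mono hf.2.2).mul hf.1.continuous.continuousOn)
  have h2 : IntegrableOn (fun z => θ z * (c z * f z)) (U \ tsupport f) := by
    refine (integrableOn_congr_fun (g := fun z => θ z * (c z * f z)) (f := fun _ => (0 : ℝ)) ?_
      (hU.measurableSet.diff hK.isClosed.measurableSet)).1 integrableOn_zero
    intro z hz
    simp [hf.zero hz.2]
  have h3 := h1.union h2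
  rwa [union_sdiff_cancel hf.2.2] at h3

/-- Integration of a pointwise inequality with a divergence and a continuous weight. -/
theorem In_le (ok : σ.Ok U θ) (hf : Te U f) (hh : Te U h) (hg : Te U g) (hg0 : In U θ g = 0)
    (hom : ContinuousOn om U) (ha : Te U a) (c : ℝ)
    (hle : ∀ z ∈ U, f z ≤ h z + c * (om z * a z ^ 2) + g z) :
    In U θ f ≤ In U θ h + c * In U θ (fun z => om z * a z ^ 2) := by
  have i1 := te_int ok.op ok.ts hf
  have i2 := te_int ok.op ok.ts hh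
  have i3 := te_int ok.op ok.ts hg
  have i4 := ct_int ok.op ok.ts hom (ha.sq ok.op)
  have e1 : ∫ z in U, (θ z * h z + c * (θ z * (om z * a z ^ 2)) + θ z * g z) =
      (∫ z in U, (θ z * h z + c * (θ z * (om z * a z ^ 2)))) + ∫ z in U, θ z * g z :=
    integral_add (i2.add (i4.const_mul c)) i3
  have e2 : ∫ z in U, (θ z * h z + c * (θ z * (om z * a z ^ 2))) =
      (∫ z in U, θ z * h z) + ∫ z in U, c * (θ z * (om z * a z ^ 2)) :=
    integral_add i2 (i4.const_mul c)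
  have e : In U θ h + c * In U θ (fun z => om z * a z ^ 2) + In U θ g =
      ∫ z in U, (θ z * h z + c * (θ z * (om z * a z ^ 2)) + θ z * g z) := by
    rw [e1, e2, integral_const_mul]
    rfl
  have m : In U θ f ≤ ∫ z in U, (θ z * h z + c * (θ z * (om z * a z ^ 2)) + θ z * g z) := by
    unfold In
    refine setIntegral_mono_on i1 ((i2.add (i4.const_mul c)).add i3) ok.op.measurableSet ?_
    intro z hz
    have h1 := mul_le_mul_of_nonneg_left (hle z hz) (ok.tp z hz).le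
    linarith
  rw [← e, hg0, add_zero] at m
  exact m

/-- The conditions on the cut-off. -/
structure Cu (σ : Sl E ι) (U : Set E) (χ om : E → ℝ) : Prop where
  sm : Sm U χ
  ct : ContinuousOn om U
  h0 : ∀ z ∈ U, χ z ^ 2 ≤ om z
  h1 : ∀ z ∈ U, q1 σ χ z ≤ om z
  h2 : ∀ z ∈ U, q2 σ χ z ≤ om z
  h3 : ∀ z ∈ U, q1 σ χ z ^ 2 ≤ χ z ^ 2 * om z

private lemma two_mul_le {x y p q : ℝ} (hp : 0 ≤ p) (hq : 0 ≤ q) (h : (x * y) ^ 2 ≤ p * q) :
    -(p + q) ≤ 2 * (x * y) := by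
  have h1 : |x * y| ≤ √(p * q) := by
    rw [← Real.sqrt_sq_eq_abs]
    exact Real.sqrt_le_sqrt h
  have h2 : 2 * √(p * q) ≤ p + q := by
    have h3 : √(p * q) ^ 2 = p * q := Real.sq_sqrt (mul_nonneg hp hq)
    have h4 := Real.sqrt_nonneg (p * q)
    nlinarith [sq_nonneg (p - q)]
  have := (abs_le.1 h1).1
  linarith

/-- **Second derivatives.** -/
theorem est2 (ok : σ.Ok U θ) (fl : Flt σ U) (hc : Cu σ U χ om) (ha : Te U a) :
    In U θ (fun z => χ z ^ 2 * q2 σ a z) ≤ 4 * In U θ (fun z => χ z ^ 2 * L0 σ a z ^ 2) +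
      6 * In U θ (fun z => q1 σ χ z * q1 σ a z) := by
  have hU := ok.op
  have s2 := hc.sm.pow 2
  have tF : ∀ j, Te U fun z => χ z ^ 2 * ∑ i, σ.D i a z * σ.D j (σ.D i a) z := fun j =>
    (Te.sum hU _ fun i _ => (ok.tD (ok.tD ha i) j).mul_left hU (ok.sD ha.sm i)).mul_left hU s2
  have tG : ∀ i, Te U fun z => χ z ^ 2 * (σ.D i a z * L0 σ a z) := fun i =>
    ((tL0 ok ha).mul_left hU (ok.sD ha.sm i)).mul_left hU s2
  have tF' : Te U fun z => ∑ j, σ.D j (fun z => χ z ^ 2 * ∑ i, σ.D i a z *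
    σ.D j (σ.D i a) z) z := Te.sum hU _ fun j _ => ok.tD (tF j) j
  have tG' : Te U fun z => ∑ i, σ.D i (fun z => χ z ^ 2 * (σ.D i a z * L0 σ a z)) z :=
    Te.sum hU _ fun i _ => ok.tD (tG i) i
  have z1 : In U θ (fun z => 2 * ((∑ j, σ.D j (fun z => χ z ^ 2 * ∑ i, σ.D i a z *
      σ.D j (σ.D i a) z) z) - (∑ i, σ.D i (fun z => χ z ^ 2 * (σ.D i a z * L0 σ a z)) z))) =
      0 := by
    rw [In_cmul, In_sub hU ok.ts tF' tG', div0 ok fl tF, div0 ok fl tG]; ring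
  have t1 : Te U fun z => χ z ^ 2 * L0 σ a z ^ 2 := ((tL0 ok ha).sq hU).mul_left hU s2
  have t2 : Te U fun z => q1 σ χ z * q1 σ a z := (tq1 ok ha).mul_left hU (sq1 ok hc.sm)
  have main := In_le (c := 0) (om := om) (a := a) ok (((tq2 ok ha).mul_left hU s2) : Te U fun z => χ z ^ 2 * q2 σ a z)
    ((t1.cmul hU 4).add hU (t2.cmul hU 6)) ((tF'.sub hU tG').cmul hU 2) z1 hc.ct ha ?_
  · rw [In_add hU ok.ts (t1.cmul hU 4) (t2.cmul hU 6), In_cmul, In_cmul] at main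
    linarith
  intro z hz
  rw [hes_id ok fl hc.sm ha.sm hz]
  have q0 := q1_nonneg σ χ z
  have q0' := q1_nonneg σ a z
  have q0'' := q2_nonneg σ a z
  have a1 : (∑ j, ∑ i, σ.D j χ z * σ.D i a z * σ.D j (σ.D i a) z) ^ 2 ≤
      (q1 σ χ z * q1 σ a z) * q2 σ a z := by
    have e : (q1 σ χ z * q1 σ a z) = ∑ j, ∑ i, (σ.D j χ z * σ.D i a z) ^ 2 := by
      unfold q1
      rw [Finset.sum_mul_sum]
      exact Finset.sum_congr rfl fun j _ => Finset.sum_congr rfl fun i _ => by ring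
    have h := Finset.sum_mul_sq_le_sq_mul_sq (Finset.univ : Finset (ι × ι))
      (fun p => σ.D p.1 χ z * σ.D p.2 a z) (fun p => σ.D p.1 (σ.D p.2 a) z)
    simp only [Fintype.sum_prod_type] at h
    rw [e]
    unfold q2
    exact h
  have a2 : -(2 * (2 * (q1 σ χ z * q1 σ a z)) + 1 / 2 * (χ z ^ 2 * q2 σ a z) * 2) ≤
      2 * (2 * (χ z * ∑ j, ∑ i, σ.D j χ z * σ.D i a z * σ.D j (σ.D i a) z)) := by
    set S := ∑ j, ∑ i, σ.D j χ z * σ.D i a z * σ.D j (σ.D i a) z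
    have h1 := two_mul_le (x := 2 * χ z) (y := S) (p := 4 * (q1 σ χ z * q1 σ a z))
      (q := χ z ^ 2 * q2 σ a z) (by positivity) (by positivity) (by
        have h2 := mul_le_mul_of_nonneg_left a1 (show 0 ≤ 4 * χ z ^ 2 by positivity)
        calc (2 * χ z * S) ^ 2 = 4 * χ z ^ 2 * S ^ 2 := by ring
          _ ≤ _ := h2
          _ = _ := by ring)
    linarith
  have a3 : -(χ z ^ 2 * L0 σ a z ^ 2 + q1 σ χ z * q1 σ a z) ≤
      2 * (χ z * L0 σ a z * -(pq σ χ a z)) := by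
    refine two_mul_le (by positivity) (by positivity) ?_
    have h1 := pq_sq σ χ a z
    have h2 := mul_le_mul_of_nonneg_left h1 (show 0 ≤ (χ z * L0 σ a z) ^ 2 by positivity)
    calc (χ z * L0 σ a z * -(pq σ χ a z)) ^ 2 = (χ z * L0 σ a z) ^ 2 * pq σ χ a z ^ 2 := by ring
      _ ≤ _ := h2
      _ = _ := by ring
  linarith

/-- **First derivatives on the support of `Dχ`.** -/
theorem est1' (ok : σ.Ok U θ) (fl : Flt σ U) (hc : Cu σ U χ om) (ha : Te U a) :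
    In U θ (fun z => q1 σ χ z * q1 σ a z) ≤ In U θ (fun z => χ z ^ 2 * L0 σ a z ^ 2) +
      5 * In U θ (fun z => om z * a z ^ 2) := by
  have hU := ok.op
  have s2 := hc.sm.pow 2
  have sg := sq1 ok hc.sm
  have tF : ∀ i, Te U fun z => q1 σ χ z * (a z * σ.D i a z) := fun i =>
    ((ok.tD ha i).mul_left hU ha.sm).mul_left hU sg
  have tF' : Te U fun z => ∑ i, σ.D i (fun z => q1 σ χ z * (a z * σ.D i a z)) z :=
    Te.sum hU _ fun j _ => ok.tD (tF j) j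
  have z1 : In U θ (fun z => 2 * ∑ i, σ.D i (fun z => q1 σ χ z * (a z * σ.D i a z)) z) = 0 := by
    rw [In_cmul, div0 ok fl tF]; ring
  have t1 : Te U fun z => χ z ^ 2 * L0 σ a z ^ 2 := ((tL0 ok ha).sq hU).mul_left hU s2
  have t2 : Te U fun z => q1 σ χ z * q1 σ a z := (tq1 ok ha).mul_left hU sg
  refine In_le ok t2 t1 (tF'.cmul hU 2) z1 hc.ct ha 5 ?_
  intro z hz
  have q0 := q1_nonneg σ χ z
  have q0' := q1_nonneg σ a z
  have q0'' := q2_nonneg σ χ z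
  have e1 : ∑ i, σ.D i (fun z => q1 σ χ z * (a z * σ.D i a z)) z =
      2 * (a z * ∑ j, ∑ i, σ.D j χ z * σ.D i a z * σ.D i (σ.D j χ) z) +
        q1 σ χ z * q1 σ a z + q1 σ χ z * (a z * L0 σ a z) := by
    have f1 : ∀ i, σ.D i (fun z => q1 σ χ z * (a z * σ.D i a z)) z =
        (∑ j, 2 * σ.D j χ z * σ.D i (σ.D j χ) z) * (a z * σ.D i a z) +
          q1 σ χ z * (σ.D i a z * σ.D i a z + a z * σ.D i (σ.D i a) z) := by
      intro i
      rw [D_mul σ hU sg (ha.sm.mul (ok.sD ha.sm i)) i hz, D_mul σ hU ha.sm (ok.sD ha.sm i) i hz]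
      have : σ.D i (q1 σ χ) z = ∑ j, 2 * σ.D j χ z * σ.D i (σ.D j χ) z := by
        have : q1 σ χ = fun z => ∑ j, σ.D j χ z ^ 2 := rfl
        rw [this, D_sum σ hU _ (fun j _ => (ok.sD hc.sm j).pow 2) i hz]
        exact Finset.sum_congr rfl fun j _ => D_sq σ hU (ok.sD hc.sm j) i hz
      rw [this]
    simp only [f1]
    rw [Finset.sum_add_distrib]
    have f2 : ∑ i, (∑ j, 2 * σ.D j χ z * σ.D i (σ.D j χ) z) * (a z * σ.D i a z) =
        2 * (a z * ∑ j, ∑ i, σ.D j χ z * σ.D i a z * σ.D i (σ.D j χ) z) := by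
      rw [Finset.sum_comm (f := fun j i => σ.D j χ z * σ.D i a z * σ.D i (σ.D j χ) z)]
      simp only [Finset.mul_sum, Finset.sum_mul]
      exact Finset.sum_congr rfl fun i _ => Finset.sum_congr rfl fun j _ => by ring
    have f3 : ∑ i, q1 σ χ z * (σ.D i a z * σ.D i a z + a z * σ.D i (σ.D i a) z) =
        q1 σ χ z * q1 σ a z + q1 σ χ z * (a z * L0 σ a z) := by
      rw [← Finset.mul_sum, Finset.sum_add_distrib, ← Finset.mul_sum]
      unfold L0
      have : ∑ i, σ.D i a z * σ.D i a z = q1 σ a z :=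
        Finset.sum_congr rfl fun i _ => by ring
      rw [this]; ring
    rw [f2, f3]; ring
  rw [e1]
  have a1 : (∑ j, ∑ i, σ.D j χ z * σ.D i a z * σ.D i (σ.D j χ) z) ^ 2 ≤
      (q1 σ χ z * q1 σ a z) * q2 σ χ z := by
    have e : (q1 σ χ z * q1 σ a z) = ∑ j, ∑ i, (σ.D j χ z * σ.D i a z) ^ 2 := by
      unfold q1
      rw [Finset.sum_mul_sum]
      exact Finset.sum_congr rfl fun j _ => Finset.sum_congr rfl fun i _ => by ring
    have h := Finset.sum_mul_sq_le_sq_mul_sq (Finset.univ : Finset (ι × ι))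
      (fun p => σ.D p.1 χ z * σ.D p.2 a z) (fun p => σ.D p.2 (σ.D p.1 χ) z)
    simp only [Fintype.sum_prod_type] at h
    rw [e]
    unfold q2
    rw [Finset.sum_comm (f := fun j i => σ.D j (σ.D i χ) z ^ 2)]
    exact h
  have a2 : -(q1 σ χ z * q1 σ a z + 4 * (om z * a z ^ 2)) ≤
      2 * (2 * a z * ∑ j, ∑ i, σ.D j χ z * σ.D i a z * σ.D i (σ.D j χ) z) := by
    set S := ∑ j, ∑ i, σ.D j χ z * σ.D i a z * σ.D i (σ.D j χ) z
    have ho : 0 ≤ om z := (sq_nonneg _).trans (hc.h0 z hz)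
    refine two_mul_le (by positivity) (by positivity) ?_
    have h2 := mul_le_mul_of_nonneg_left a1 (show 0 ≤ 4 * a z ^ 2 by positivity)
    have h3 : 4 * a z ^ 2 * (q1 σ χ z * q1 σ a z * q2 σ χ z) ≤
        4 * a z ^ 2 * (q1 σ χ z * q1 σ a z * om z) := by
      have := hc.h2 z hz
      gcongr
    calc (2 * a z * S) ^ 2 = 4 * a z ^ 2 * S ^ 2 := by ring
      _ ≤ _ := h2
      _ ≤ _ := h3
      _ = _ := by ring
  have a3 : -(χ z ^ 2 * L0 σ a z ^ 2 + om z * a z ^ 2) ≤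
      2 * (q1 σ χ z * (a z * L0 σ a z)) := by
    have ho : 0 ≤ om z := (sq_nonneg _).trans (hc.h0 z hz)
    refine two_mul_le (by positivity) (by positivity) ?_
    have h1 := mul_le_mul_of_nonneg_right (hc.h3 z hz)
      (show 0 ≤ (a z * L0 σ a z) ^ 2 by positivity)
    calc (q1 σ χ z * (a z * L0 σ a z)) ^ 2 = q1 σ χ z ^ 2 * (a z * L0 σ a z) ^ 2 := by ring
      _ ≤ _ := h1
      _ = _ := by ring
  linarith

/-- **First derivatives.** -/
theorem est1 (ok : σ.Ok U θ) (fl : Flt σ U) (hc : Cu σ U χ om) (ha : Te U a) {δ : ℝ}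
    (hδ : 0 < δ) :
    In U θ (fun z => χ z ^ 2 * q1 σ a z) ≤ δ * In U θ (fun z => χ z ^ 2 * L0 σ a z ^ 2) +
      (1 / δ + 4) * In U θ (fun z => om z * a z ^ 2) := by
  have hU := ok.op
  have s2 := hc.sm.pow 2
  have tF : ∀ i, Te U fun z => χ z ^ 2 * (a z * σ.D i a z) := fun i =>
    ((ok.tD ha i).mul_left hU ha.sm).mul_left hU s2
  have tF' : Te U fun z => ∑ i, σ.D i (fun z => χ z ^ 2 * (a z * σ.D i a z)) z :=
    Te.sum hU _ fun j _ => ok.tD (tF j) j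
  have z1 : In U θ (fun z => 2 * ∑ i, σ.D i (fun z => χ z ^ 2 * (a z * σ.D i a z)) z) = 0 := by
    rw [In_cmul, div0 ok fl tF]; ring
  have t1 : Te U fun z => χ z ^ 2 * L0 σ a z ^ 2 := ((tL0 ok ha).sq hU).mul_left hU s2
  have t2 : Te U fun z => χ z ^ 2 * q1 σ a z := (tq1 ok ha).mul_left hU s2
  have main := In_le ok t2 (t1.cmul hU δ) (tF'.cmul hU 2) z1 hc.ct ha (1 / δ + 4) ?_
  · rwa [In_cmul] at main
  intro z hz
  have q0 := q1_nonneg σ χ z
  have q0' := q1_nonneg σ a z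
  have e1 : ∑ i, σ.D i (fun z => χ z ^ 2 * (a z * σ.D i a z)) z =
      2 * (χ z * a z * pq σ χ a z) + χ z ^ 2 * q1 σ a z + χ z ^ 2 * (a z * L0 σ a z) := by
    have f1 : ∀ i, σ.D i (fun z => χ z ^ 2 * (a z * σ.D i a z)) z =
        2 * χ z * σ.D i χ z * (a z * σ.D i a z) +
          χ z ^ 2 * (σ.D i a z * σ.D i a z + a z * σ.D i (σ.D i a) z) := by
      intro i
      rw [D_mul σ hU s2 (ha.sm.mul (ok.sD ha.sm i)) i hz, D_mul σ hU ha.sm (ok.sD ha.sm i) i hz,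
        D_sq σ hU hc.sm i hz]
    simp only [f1]
    unfold pq L0 q1
    simp only [Finset.mul_sum, ← Finset.sum_add_distrib]
    exact Finset.sum_congr rfl fun i _ => by ring
  rw [e1]
  have ho : 0 ≤ om z := (sq_nonneg _).trans (hc.h0 z hz)
  have a2 : -(χ z ^ 2 * q1 σ a z + 4 * (om z * a z ^ 2)) ≤
      2 * (2 * (χ z * a z) * pq σ χ a z) := by
    refine two_mul_le (by positivity) (by positivity) ?_
    have h1 := pq_sq σ χ a z
    have h2 := mul_le_mul_of_nonneg_left h1 (show 0 ≤ 4 * (χ z * a z) ^ 2 by positivity)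
    have h3 : 4 * (χ z * a z) ^ 2 * (q1 σ χ z * q1 σ a z) ≤
        4 * (χ z * a z) ^ 2 * (om z * q1 σ a z) := by
      have := hc.h1 z hz
      gcongr
    calc (2 * (χ z * a z) * pq σ χ a z) ^ 2 = 4 * (χ z * a z) ^ 2 * pq σ χ a z ^ 2 := by ring
      _ ≤ _ := h2
      _ ≤ _ := h3
      _ = _ := by ring
  have a3 : -(δ * (χ z ^ 2 * L0 σ a z ^ 2) + 1 / δ * (om z * a z ^ 2)) ≤
      2 * (χ z ^ 2 * (a z * L0 σ a z)) := by
    have hd : 0 ≤ 1 / δ := by positivity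
    refine two_mul_le (by positivity) (by positivity) ?_
    have h1 := hc.h0 z hz
    calc (χ z ^ 2 * (a z * L0 σ a z)) ^ 2 = χ z ^ 2 * L0 σ a z ^ 2 * (χ z ^ 2 * a z ^ 2) := by
          ring
      _ ≤ χ z ^ 2 * L0 σ a z ^ 2 * (om z * a z ^ 2) := by gcongr
      _ = _ := by field_simp
  linarith

/-- The operator in one flat slot. -/
def PF (σ : Sl E ι) (W R a : E → ℝ) (z : E) : ℝ := L0 σ a z + 2 * pq σ W a z + R z * a z

omit [MeasureSpace E] [FiniteDimensional ℝ E] [BorelSpace E]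
  [(volume : Measure E).IsAddHaarMeasure] in
theorem tPF (ok : σ.Ok U θ) (hW : Sm U W) (hR : Sm U R) (ha : Te U a) : Te U (PF σ W R a) :=
  ((tL0 ok ha).add ok.op ((tpq ok hW ha).cmul ok.op 2)).add ok.op (ha.mul_left ok.op hR)

/-- **The elliptic estimate.** -/
theorem ell (ok : σ.Ok U θ) (fl : Flt σ U) (hc : Cu σ U χ om) (hW : Sm U W) (hR : Sm U R)
    (ha : Te U a) {B : ℝ} (hB : 1 ≤ B) (hW1 : ∀ z ∈ U, χ z ≠ 0 → q1 σ W z ≤ B ^ 2)
    (hR1 : ∀ z ∈ U, χ z ≠ 0 → |R z| ≤ B) :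
    In U θ (fun z => χ z ^ 2 * (q2 σ a z + q1 σ a z)) ≤
      44 * In U θ (fun z => χ z ^ 2 * PF σ W R a z ^ 2) +
        12800 * B ^ 4 * In U θ (fun z => om z * a z ^ 2) := by
  have hU := ok.op
  have s2 := hc.sm.pow 2
  have tY : Te U fun z => χ z ^ 2 * L0 σ a z ^ 2 := ((tL0 ok ha).sq hU).mul_left hU s2
  have tP : Te U fun z => χ z ^ 2 * PF σ W R a z ^ 2 :=
    ((tPF ok hW hR ha).sq hU).mul_left hU s2
  have t1 : Te U fun z => χ z ^ 2 * q1 σ a z := (tq1 ok ha).mul_left hU s2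
  have t2 : Te U fun z => χ z ^ 2 * q2 σ a z := (tq2 ok ha).mul_left hU s2
  have z0 : In U θ (fun _ => 0) = 0 := In_zero U θ
  have m1 := In_le (c := 4 * B ^ 2) ok tY ((tP.cmul hU 2).add hU (t1.cmul hU (16 * B ^ 2)))
    (te_zero hU) z0 hc.ct ha (fun z hz => by
      by_cases h0 : χ z = 0
      · have ho : 0 ≤ om z := (sq_nonneg _).trans (hc.h0 z hz)
        have : 0 ≤ 4 * B ^ 2 * (om z * a z ^ 2) := by positivity
        rw [h0]
        simpa using this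
      · have b1 := hW1 z hz h0
        have b2 := hR1 z hz h0
        have b3 := pq_sq σ W a z
        have q0 := q1_nonneg σ a z
        have b4 : pq σ W a z ^ 2 ≤ B ^ 2 * q1 σ a z := b3.trans (by gcongr)
        have b5 : (R z * a z) ^ 2 ≤ B ^ 2 * a z ^ 2 := by
          rw [mul_pow, ← sq_abs (R z)]
          gcongr
        have b6 : L0 σ a z ^ 2 ≤ 2 * PF σ W R a z ^ 2 + 16 * pq σ W a z ^ 2 +
            4 * (R z * a z) ^ 2 := by
          have e : L0 σ a z = PF σ W R a z - (2 * pq σ W a z + R z * a z) := by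
            unfold PF; ring
          rw [e]
          nlinarith [sq_nonneg (PF σ W R a z + (2 * pq σ W a z + R z * a z)),
            sq_nonneg (2 * pq σ W a z - R z * a z)]
        have b7 := hc.h0 z hz
        have b8 : χ z ^ 2 * L0 σ a z ^ 2 ≤ χ z ^ 2 * (2 * PF σ W R a z ^ 2 +
            16 * (B ^ 2 * q1 σ a z) + 4 * (B ^ 2 * a z ^ 2)) := by
          refine mul_le_mul_of_nonneg_left (b6.trans ?_) (sq_nonneg _)
          linarith
        have b9 : χ z ^ 2 * a z ^ 2 ≤ om z * a z ^ 2 :=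
          mul_le_mul_of_nonneg_right b7 (sq_nonneg _)
        have b10 : 4 * B ^ 2 * (χ z ^ 2 * a z ^ 2) ≤ 4 * B ^ 2 * (om z * a z ^ 2) :=
          mul_le_mul_of_nonneg_left b9 (by positivity)
        linarith)
  rw [In_add hU ok.ts (tP.cmul hU 2) (t1.cmul hU (16 * B ^ 2)), In_cmul, In_cmul] at m1
  have hB0 : 0 < B := by linarith
  have m2 := est1 ok fl hc ha (δ := 1 / (32 * B ^ 2)) (by positivity)
  have m3 := est1 ok fl hc ha (δ := 1) one_pos
  have m4 := est2 ok fl hc ha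
  have m5 := est1' ok fl hc ha
  have hsum : In U θ (fun z => χ z ^ 2 * (q2 σ a z + q1 σ a z)) =
      In U θ (fun z => χ z ^ 2 * q2 σ a z) + In U θ (fun z => χ z ^ 2 * q1 σ a z) := by
    rw [← In_add hU ok.ts t2 t1]
    exact In_congr hU fun z _ => by ring
  rw [hsum]
  set Y := In U θ (fun z => χ z ^ 2 * L0 σ a z ^ 2)
  set Q := In U θ (fun z => χ z ^ 2 * PF σ W R a z ^ 2)
  set X := In U θ (fun z => χ z ^ 2 * q1 σ a z)
  set Z := In U θ (fun z => om z * a z ^ 2)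
  have hZ : 0 ≤ Z := In_nonneg hU ok.tp fun z hz =>
    mul_nonneg ((sq_nonneg _).trans (hc.h0 z hz)) (sq_nonneg _)
  have hQ : 0 ≤ Q := In_nonneg hU ok.tp fun z hz => by positivity
  have m2' : 16 * B ^ 2 * X ≤ 1 / 2 * Y + (512 * B ^ 4 + 64 * B ^ 2) * Z := by
    have := mul_le_mul_of_nonneg_left m2 (show 0 ≤ 16 * B ^ 2 by positivity)
    refine this.trans (le_of_eq ?_)
    field_simp
    ring
  have hB2 : B ^ 2 ≤ B ^ 4 := pow_le_pow_right₀ hB (by norm_num)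
  have hB4 : 1 ≤ B ^ 4 := one_le_pow₀ hB
  have k1 : B ^ 2 * Z ≤ B ^ 4 * Z := mul_le_mul_of_nonneg_right hB2 hZ
  have k2 : Z ≤ B ^ 4 * Z := le_mul_of_one_le_left hZ hB4
  have hY : Y ≤ 4 * Q + 1160 * (B ^ 4 * Z) := by linarith
  have g1 : X ≤ Y + 5 * Z := by
    have : (1 / (1 : ℝ) + 4) = 5 := by norm_num
    rw [this, one_mul] at m3
    exact m3
  linarith

/-- **A perturbation of the operator.** -/
theorem pert (ok : σ.Ok U θ) (fl : Flt σ U) (hc : Cu σ U χ om) (hW : Sm U W) (hR : Sm U R)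
    (ha : Te U a) {B : ℝ} (hB : 1 ≤ B) (hW1 : ∀ z ∈ U, χ z ≠ 0 → q1 σ W z ≤ B ^ 2)
    (hR1 : ∀ z ∈ U, χ z ≠ 0 → |R z| ≤ B) {Q : E → ℝ} (hQ : Te U Q) {K ε : ℝ} (hK : 0 ≤ K)
    (hε : 0 < ε) (hε1 : ε ≤ 1) (hQP : ∀ z ∈ U, χ z ≠ 0 →
      (Q z - PF σ W R a z) ^ 2 ≤ K * ε ^ 2 * (q2 σ a z + q1 σ a z + a z ^ 2)) :
    |In U θ (fun z => χ z ^ 2 * Q z ^ 2) - In U θ (fun z => χ z ^ 2 * PF σ W R a z ^ 2)| ≤
      (1 + 25602 * K * B ^ 4) * ε * (In U θ (fun z => χ z ^ 2 * PF σ W R a z ^ 2) +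
        In U θ (fun z => om z * a z ^ 2)) := by
  have hU := ok.op
  have s2 := hc.sm.pow 2
  have tQ : Te U fun z => χ z ^ 2 * Q z ^ 2 := (hQ.sq hU).mul_left hU s2
  have tP : Te U fun z => χ z ^ 2 * PF σ W R a z ^ 2 :=
    ((tPF ok hW hR ha).sq hU).mul_left hU s2
  have tD : Te U fun z => χ z ^ 2 * (q2 σ a z + q1 σ a z) :=
    ((tq2 ok ha).add hU (tq1 ok ha)).mul_left hU s2
  have z0 : In U θ (fun _ => 0) = 0 := In_zero U θ
  have hd : ∀ z ∈ U, χ z ^ 2 * (Q z - PF σ W R a z) ^ 2 ≤ K * ε ^ 2 *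
      (χ z ^ 2 * (q2 σ a z + q1 σ a z)) + K * ε ^ 2 * (om z * a z ^ 2) := by
    intro z hz
    by_cases h0 : χ z = 0
    · have ho : 0 ≤ om z := (sq_nonneg _).trans (hc.h0 z hz)
      have : 0 ≤ K * ε ^ 2 * (om z * a z ^ 2) := by positivity
      rw [h0]
      simpa using this
    · have h1 := mul_le_mul_of_nonneg_left (hQP z hz h0) (sq_nonneg (χ z))
      have h2 : χ z ^ 2 * a z ^ 2 ≤ om z * a z ^ 2 :=
        mul_le_mul_of_nonneg_right (hc.h0 z hz) (sq_nonneg _)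
      have h3 : K * ε ^ 2 * (χ z ^ 2 * a z ^ 2) ≤ K * ε ^ 2 * (om z * a z ^ 2) :=
        mul_le_mul_of_nonneg_left h2 (by positivity)
      linarith
  have e0 : 0 < 1 / ε := by positivity
  have e1 : 1 / ε * (K * ε ^ 2) = K * ε := by field_simp
  have e2 : ε * (1 / ε) = 1 := by field_simp
  have e3 : 1 ≤ 1 / ε := by rw [le_div_iff₀ hε]; linarith
  -- upper bound
  have up := In_le (c := 2 * (K * ε)) ok tQ ((tP.cmul hU (1 + ε)).add hU
    (tD.cmul hU (2 * (K * ε)))) (te_zero hU) z0 hc.ct ha (fun z hz => by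
      have h1 := hd z hz
      have h2 : Q z ^ 2 ≤ (1 + ε) * PF σ W R a z ^ 2 +
          2 * (1 / ε) * (Q z - PF σ W R a z) ^ 2 := by
        set x := PF σ W R a z
        set d := Q z - x with hdd
        have : Q z = x + d := by rw [hdd]; ring
        rw [this]
        have h3 : 0 ≤ ε * (x - 1 / ε * d) ^ 2 := by positivity
        have h4 : ε * (x - 1 / ε * d) ^ 2 = ε * x ^ 2 - 2 * (ε * (1 / ε)) * x * d +
            ε * (1 / ε) * (1 / ε) * d ^ 2 := by ring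
        rw [h4, e2] at h3
        have h5 : d ^ 2 ≤ 1 / ε * d ^ 2 := le_mul_of_one_le_left (sq_nonneg _) e3
        nlinarith [h3, h5]
      have h6 := mul_le_mul_of_nonneg_left h2 (sq_nonneg (χ z))
      have h7 := mul_le_mul_of_nonneg_left h1 (show 0 ≤ 2 * (1 / ε) by positivity)
      have h8 : 2 * (1 / ε) * (K * ε ^ 2 * (χ z ^ 2 * (q2 σ a z + q1 σ a z)) +
          K * ε ^ 2 * (om z * a z ^ 2)) = 2 * (1 / ε * (K * ε ^ 2)) *
          (χ z ^ 2 * (q2 σ a z + q1 σ a z)) +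
          2 * (1 / ε * (K * ε ^ 2)) * (om z * a z ^ 2) := by ring
      rw [h8, e1] at h7
      linarith)
  rw [In_add hU ok.ts (tP.cmul hU (1 + ε)) (tD.cmul hU (2 * (K * ε))), In_cmul, In_cmul] at up
  -- lower bound
  have lo := In_le (c := K * ε) ok (tP.cmul hU (1 - ε)) (tQ.add hU
    (tD.cmul hU (K * ε))) (te_zero hU) z0 hc.ct ha (fun z hz => by
      have h1 := hd z hz
      have h2 : (1 - ε) * PF σ W R a z ^ 2 ≤ Q z ^ 2 +
          1 / ε * (Q z - PF σ W R a z) ^ 2 := by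
        set x := PF σ W R a z
        set d := Q z - x with hdd
        have : Q z = x + d := by rw [hdd]; ring
        rw [this]
        have h3 : 0 ≤ ε * (x + 1 / ε * d) ^ 2 := by positivity
        have h4 : ε * (x + 1 / ε * d) ^ 2 = ε * x ^ 2 + 2 * (ε * (1 / ε)) * x * d +
            ε * (1 / ε) * (1 / ε) * d ^ 2 := by ring
        rw [h4, e2] at h3
        nlinarith [h3, sq_nonneg d]
      have h6 := mul_le_mul_of_nonneg_left h2 (sq_nonneg (χ z))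
      have h7 := mul_le_mul_of_nonneg_left h1 e0.le
      have h8 : 1 / ε * (K * ε ^ 2 * (χ z ^ 2 * (q2 σ a z + q1 σ a z)) +
          K * ε ^ 2 * (om z * a z ^ 2)) = 1 / ε * (K * ε ^ 2) *
          (χ z ^ 2 * (q2 σ a z + q1 σ a z)) +
          1 / ε * (K * ε ^ 2) * (om z * a z ^ 2) := by ring
      rw [h8, e1] at h7
      linarith)
  rw [In_add hU ok.ts tQ (tD.cmul hU (K * ε)), In_cmul, In_cmul] at lo
  have el := ell ok fl hc hW hR ha hB hW1 hR1
  set q := In U θ (fun z => χ z ^ 2 * Q z ^ 2)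
  set p := In U θ (fun z => χ z ^ 2 * PF σ W R a z ^ 2)
  set Z := In U θ (fun z => om z * a z ^ 2)
  set D := In U θ (fun z => χ z ^ 2 * (q2 σ a z + q1 σ a z))
  have hZ : 0 ≤ Z := In_nonneg hU ok.tp fun z hz =>
    mul_nonneg ((sq_nonneg _).trans (hc.h0 z hz)) (sq_nonneg _)
  have hp : 0 ≤ p := In_nonneg hU ok.tp fun z hz => by positivity
  have hB4 : 1 ≤ B ^ 4 := one_le_pow₀ hB
  have k2 : Z ≤ B ^ 4 * Z := le_mul_of_one_le_left hZ hB4
  have k3 : p ≤ B ^ 4 * p := le_mul_of_one_le_left hp hB4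
  have hKε : 0 ≤ K * ε := by positivity
  have w1 : K * ε * D ≤ K * ε * (44 * (B ^ 4 * p) + 12800 * (B ^ 4 * Z)) :=
    mul_le_mul_of_nonneg_left (by linarith) hKε
  have w2 : K * ε * Z ≤ K * ε * (B ^ 4 * Z) := mul_le_mul_of_nonneg_left k2 hKε
  have w3 : 0 ≤ K * ε * (B ^ 4 * p) := mul_nonneg hKε (by positivity)
  have w4 : 0 ≤ K * ε * (B ^ 4 * Z) := mul_nonneg hKε (by positivity)
  have w5 : 0 ≤ ε * Z := by positivity
  rw [abs_le]
  constructor
  · have : -((1 + 25602 * K * B ^ 4) * ε * (p + Z)) = -(ε * p) - ε * Z -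
        25602 * (K * ε * (B ^ 4 * p)) - 25602 * (K * ε * (B ^ 4 * Z)) := by ring
    rw [this]
    linarith
  · have : (1 + 25602 * K * B ^ 4) * ε * (p + Z) = ε * p + ε * Z +
        25602 * (K * ε * (B ^ 4 * p)) + 25602 * (K * ε * (B ^ 4 * Z)) := by ring
    rw [this]
    linarith

end ell

end Vale.Agent.P088.R2.H912.Cw
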