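import Vale.Agent.P088.R2.H912.W.PG2a
import Vale.Agent.P088.R2.H912.W.G2c
import Vale.Agent.P088.R2.H660.P.Spec

/-!
# P088, stage 3: `Γ₂` at the flat pass (row `RowPG2`)
-/

open MeasureTheory Set Filter
open scoped ContDiff Topology

noncomputable section

namespace Vale.Agent.P088.R2.H912.Pg

open Vale.Agent.P088.R2.H961.GW Vale.Agent.P088.R2.H644 Vale.Agent.P088.R2.H660.P
  Vale.Agent.P088.R2.H230.W

/-- **Row PG2.** -/
theorem rowPG2 (E ι : Type*) [NormedAddCommGroup E] [NormedSpace ℝ E] [Fintype ι]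
    [DecidableEq ι] : RowPG2 E ι := by
  have hp : (0 : ℝ) < 3000 * (1 + (Fintype.card ι : ℝ)) ^ 4 := by positivity
  refine ⟨1 / (3000 * (1 + (Fintype.card ι : ℝ)) ^ 4), by positivity, ?_⟩
  intro σ U θ W e h K b w₁ δ₁ δ₂ z ok hρ hk hW hz H hw h1 h2 h3 h4
  have hρ' : σ.ρ = fun _ => 1 := funext hρ
  have o : Cw.S1 σ U :=
    { op := ok.op
      rs := ok.rs
      et := fun i z => by unfold Sl.η; rw [hρ']; simp
      kz := hk
      ss := ok.ss
      sy := ok.sy }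
  rw [o.G2 hW hz]
  have hd : ∀ i j : ι, (d1 i j : ℝ) = dl i j := fun i j => rfl
  have e1 : ∀ f : ι → ℝ, dd f f = ∑ i, f i * f i := fun f => rfl
  exact pg2_alg (S := fun i j => σ.s i j z) (T := fun l i j => σ.D l (σ.s i j) z)
    (R := fun k l i j => σ.D k (σ.D l (σ.s i j)) z) (w := fun i => σ.D i W z)
    (H := fun i j => σ.D i (σ.D j W) z) (e := e) (h := h) (by positivity)
    (by rw [one_div_mul_cancel hp.ne']) H.K0 H.b0 H.b1 H.hh H.ee H.he H.ss H.WW hw h1 h2 h3 h4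

end Vale.Agent.P088.R2.H912.Pg
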