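import Mathlib

/-!
# P088, stage 3: `Γ₂` at the flat pass, the algebra
-/

noncomputable section

namespace Vale.Agent.P088.R2.H912.Pg

variable {ι : Type*} [Fintype ι]

/-- A sum over four indices. -/
def S4 (F : ι → ι → ι → ι → ℝ) : ℝ := ∑ k, ∑ l, ∑ i, ∑ j, F k l i j

theorem S4_sub (F G : ι → ι → ι → ι → ℝ) :
    S4 (fun k l i j => F k l i j - G k l i j) = S4 F - S4 G := by
  simp only [S4, Finset.sum_sub_distrib]

theorem sum_le1 {f : ι → ℝ} {c : ℝ} (h : ∀ i, |f i| ≤ c) :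
    |∑ i, f i| ≤ (Fintype.card ι : ℝ) * c := by
  refine (Finset.abs_sum_le_sum_abs _ _).trans ?_
  refine (Finset.sum_le_sum fun i _ => h i).trans ?_
  simp

theorem S4_le {F : ι → ι → ι → ι → ℝ} {c : ℝ} (h : ∀ k l i j, |F k l i j| ≤ c) :
    |S4 F| ≤ (Fintype.card ι : ℝ) ^ 4 * c := by
  have := sum_le1 fun k => sum_le1 fun l => sum_le1 fun i => sum_le1 fun j => h k l i j
  unfold S4
  refine this.trans (le_of_eq (by ring))

variable [DecidableEq ι]

/-- `δ_ij`. -/
def d1 (i j : ι) : ℝ := if i = j then 1 else 0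

omit [Fintype ι] in
theorem d1_le (i j : ι) : |d1 i j| ≤ 1 := by
  unfold d1; split_ifs <;> simp

theorem S4_one (H : ι → ι → ℝ) :
    S4 (fun k l i j => d1 k l * d1 i j * H i l * H j k) = ∑ i, ∑ l, H i l * H i l := by
  unfold S4
  have h1 : ∀ k l i : ι, (∑ j, d1 k l * d1 i j * H i l * H j k) =
      d1 k l * (H i l * H i k) := by
    intro k l i
    simp [d1]
  simp only [h1, ← Finset.mul_sum]
  simp only [d1, ite_mul, one_mul, zero_mul, Finset.sum_ite_eq, Finset.mem_univ, if_true]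
  rw [Finset.sum_comm]

/-- The product of two entries. -/
theorem pr_le {a b a' b' ε : ℝ} (h1 : |a - a'| ≤ ε) (h2 : |b - b'| ≤ ε) (hb : |b| ≤ 2)
    (ha' : |a'| ≤ 1) : |a * b - a' * b'| ≤ 3 * ε := by
  have e : a * b - a' * b' = (a - a') * b + a' * (b - b') := by ring
  have h0 : 0 ≤ ε := (abs_nonneg _).trans h1
  rw [e]
  refine (abs_add_le _ _).trans ?_
  rw [abs_mul, abs_mul]
  have i1 : |a - a'| * |b| ≤ ε * 2 := by gcongr
  have i2 : |a'| * |b - b'| ≤ 1 * ε := by gcongr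
  linarith

/-- The square of the model Hessian. -/
theorem sq_model (e h : ι → ℝ) (he : ∑ i, e i * e i = 1) (hh : ∑ i, h i * h i = 1) (K b : ℝ) :
    ∑ i, ∑ j, (K * (d1 i j - h i * h j) + b * (e i * e j)) ^ 2 =
      K ^ 2 * ((Fintype.card ι : ℝ) - 1) + b ^ 2 + 2 * K * b * (1 - (∑ i, h i * e i) ^ 2) := by
  have e1 : ∀ i j, (K * (d1 i j - h i * h j) + b * (e i * e j)) ^ 2 =
      K ^ 2 * d1 i j - 2 * K ^ 2 * (d1 i j * (h i * h j)) + K ^ 2 * ((h i * h i) * (h j * h j)) +
        b ^ 2 * ((e i * e i) * (e j * e j)) + 2 * K * b * (d1 i j * (e i * e j)) -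
        2 * K * b * ((h i * e i) * (h j * e j)) := by
    intro i j
    have h0 : d1 i j ^ 2 = d1 i j := by unfold d1; split_ifs <;> simp
    linear_combination K ^ 2 * h0
  have s1 : ∑ i : ι, ∑ j, d1 i j = (Fintype.card ι : ℝ) := by simp [d1]
  have s2 : ∀ f : ι → ℝ, ∑ i, ∑ j, d1 i j * (f i * f j) = ∑ i, f i * f i := by
    intro f; simp [d1]
  have s3 : ∀ f : ι → ℝ, ∑ i, ∑ j, f i * f j = (∑ i, f i) ^ 2 := by
    intro f
    rw [sq, Finset.sum_mul_sum]
  simp only [e1, Finset.sum_add_distrib, Finset.sum_sub_distrib, ← Finset.mul_sum]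
  have s4 := s3 fun i => h i * h i
  have s5 := s3 fun i => e i * e i
  have s6 := s3 fun i => h i * e i
  simp only [← Finset.mul_sum] at s4 s5 s6
  rw [s1, s2 h, s2 e, s4, s5, s6, he, hh]
  ring

/-- **The algebra of Row G2.** -/
theorem pg2_alg {S : ι → ι → ℝ} {T : ι → ι → ι → ℝ} {R : ι → ι → ι → ι → ℝ} {w : ι → ℝ}
    {H : ι → ι → ℝ} {e h : ι → ℝ} {K b w₁ δ₁ δ₂ ε : ℝ} (hε0 : 0 ≤ ε)
    (hε : ε * (3000 * (1 + (Fintype.card ι : ℝ)) ^ 4) ≤ 1) (hK : 0 < K) (hb0 : 0 ≤ b)
    (hb1 : b ≤ 53 / 100 * K) (hh : ∑ i, h i * h i = 1) (he : ∑ i, e i * e i = 1)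
    (hhe : ∀ i, |h i + e i| ≤ ε) (hS : ∀ i j, |S i j - d1 i j| ≤ ε)
    (hH : ∀ i j, |H i j - (K * (d1 i j - h i * h j) + b * (e i * e j))| ≤ ε * K)
    (hw : ∀ i, |w i| ≤ w₁) (hT : ∀ l i j, |T l i j| ≤ δ₁) (hR : ∀ k l i j, |R k l i j| ≤ δ₂)
    (h1 : δ₁ * w₁ ≤ ε * K) (h2 : δ₂ * w₁ ^ 2 ≤ ε * K ^ 2) :
    S4 (fun k l i j => S k l * S i j * H i l * H j k + 1 / 2 * (S k l * R k l i j * w i * w j) +
      2 * (S k l * T k i j * H i l * w j) - S i j * w i * T j k l * H k l +
      (1 / 2 * (T k k l * T l i j * w i * w j) - S i j * w i * R j k k l * w l)) ≤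
      ((Fintype.card ι : ℝ) - 1 + 3 / 10) * K ^ 2 := by
  set n : ℝ := (Fintype.card ι : ℝ) with hn
  have hn0 : 0 ≤ n := by positivity
  have hp4 : 1 ≤ (1 + n) ^ 4 := one_le_pow₀ (by linarith)
  have hε1 : ε ≤ 1 := by nlinarith [mul_nonneg hε0 (show (0:ℝ) ≤ 3000 * (1 + n) ^ 4 - 1 by linarith)]
  have ne : Nonempty ι := by
    by_contra hne
    rw [not_nonempty_iff] at hne
    simp at hh
  obtain ⟨i₀⟩ := ne
  have hw0 : 0 ≤ w₁ := (abs_nonneg _).trans (hw i₀)
  have hδ1 : 0 ≤ δ₁ := (abs_nonneg _).trans (hT i₀ i₀ i₀)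
  have hδ2 : 0 ≤ δ₂ := (abs_nonneg _).trans (hR i₀ i₀ i₀ i₀)
  have hS2 : ∀ i j, |S i j| ≤ 2 := by
    intro i j
    have e : S i j = (S i j - d1 i j) + d1 i j := by ring
    rw [e]
    refine (abs_add_le _ _).trans ?_
    have := hS i j
    have := d1_le i j
    linarith
  have cmp : ∀ f : ι → ℝ, ∑ i, f i * f i = 1 → ∀ i, |f i| ≤ 1 := by
    intro f hf i
    have h3 : f i * f i ≤ ∑ i, f i * f i :=
      Finset.single_le_sum (f := fun i => f i * f i) (fun i _ => mul_self_nonneg _)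
        (Finset.mem_univ i)
    rw [hf] at h3
    rw [abs_le]
    constructor <;> nlinarith
  have ch := cmp h hh
  have ce := cmp e he
  have hH0 : ∀ i j, |K * (d1 i j - h i * h j) + b * (e i * e j)| ≤ 253 / 100 * K := by
    intro i j
    refine (abs_add_le _ _).trans ?_
    rw [abs_mul, abs_mul, abs_of_pos hK, abs_of_nonneg hb0]
    have a1 : |d1 i j - h i * h j| ≤ 2 := by
      refine (abs_sub _ _).trans ?_
      rw [abs_mul]
      have := d1_le i j
      have : |h i| * |h j| ≤ 1 * 1 := mul_le_mul (ch i) (ch j) (abs_nonneg _) one_pos.le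
      linarith
    have a2 : |e i * e j| ≤ 1 := by
      rw [abs_mul]
      have : |e i| * |e j| ≤ 1 * 1 := mul_le_mul (ce i) (ce j) (abs_nonneg _) one_pos.le
      linarith
    have a3 : K * |d1 i j - h i * h j| ≤ K * 2 := mul_le_mul_of_nonneg_left a1 hK.le
    have a4 : b * |e i * e j| ≤ 53 / 100 * K * 1 := mul_le_mul hb1 a2 (abs_nonneg _) (by positivity)
    linarith
  have hεs : ε ≤ 1 / 3000 := by nlinarith
  have hH3 : ∀ i j, |H i j| ≤ 3 * K := by
    intro i j
    have e : H i j = (H i j - (K * (d1 i j - h i * h j) + b * (e i * e j))) +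
      (K * (d1 i j - h i * h j) + b * (e i * e j)) := by ring
    rw [e]
    refine (abs_add_le _ _).trans ?_
    have := hH i j
    have := hH0 i j
    have : ε * K ≤ 1 / 3000 * K := mul_le_mul_of_nonneg_right hεs hK.le
    linarith
  -- the main term
  have m1 : ∑ i, ∑ l, H i l * H i l ≤ (n - 1) * K ^ 2 + b ^ 2 + 3 * n * (ε * K ^ 2) +
      6 * n ^ 2 * (ε * K ^ 2) := by
    have a1 : |(∑ i, ∑ l, H i l * H i l) - ∑ i, ∑ j, (K * (d1 i j - h i * h j) +
        b * (e i * e j)) ^ 2| ≤ n * (n * (6 * (ε * K ^ 2))) := by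
      rw [← Finset.sum_sub_distrib]
      refine sum_le1 fun i => ?_
      rw [← Finset.sum_sub_distrib]
      refine sum_le1 fun j => ?_
      have e1 : H i j * H i j - (K * (d1 i j - h i * h j) + b * (e i * e j)) ^ 2 =
        (H i j - (K * (d1 i j - h i * h j) + b * (e i * e j))) *
          (H i j + (K * (d1 i j - h i * h j) + b * (e i * e j))) := by ring
      rw [e1, abs_mul]
      have b1 := hH i j
      have b2 : |H i j + (K * (d1 i j - h i * h j) + b * (e i * e j))| ≤ 6 * K := by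
        refine (abs_add_le _ _).trans ?_
        have := hH3 i j
        have := hH0 i j
        linarith
      calc _ ≤ ε * K * (6 * K) := by gcongr
        _ = _ := by ring
    have a2 := sq_model e h he hh K b
    have a3 : |(∑ i, h i * e i) + 1| ≤ n * ε := by
      have e1 : (∑ i, h i * e i) + 1 = ∑ i, (h i + e i) * e i := by
        rw [← he, ← Finset.sum_add_distrib]
        exact Finset.sum_congr rfl fun i _ => by ring
      rw [e1]
      refine sum_le1 fun i => ?_
      rw [abs_mul]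
      calc |h i + e i| * |e i| ≤ ε * 1 := mul_le_mul (hhe i) (ce i) (abs_nonneg _) hε0
        _ = ε := mul_one _
    have a4 : 1 - (∑ i, h i * e i) ^ 2 ≤ 2 * (n * ε) := by
      obtain ⟨b1, b2⟩ := abs_le.1 a3
      nlinarith [sq_nonneg ((∑ i, h i * e i) + 1)]
    have a5 : 2 * K * b * (1 - (∑ i, h i * e i) ^ 2) ≤ 2 * K * b * (2 * (n * ε)) :=
      mul_le_mul_of_nonneg_left a4 (by positivity)
    have a6 : 2 * K * b * (2 * (n * ε)) ≤ 2 * K * (53 / 100 * K) * (2 * (n * ε)) := by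
      have : 0 ≤ n * ε := by positivity
      gcongr
    have a7 : 0 ≤ n * (ε * K ^ 2) := by positivity
    have a8 := (abs_le.1 a1).2
    rw [a2] at a8
    linarith
  -- the error terms
  have m2 : |S4 (fun k l i j => S k l * S i j * H i l * H j k +
      1 / 2 * (S k l * R k l i j * w i * w j) +
      2 * (S k l * T k i j * H i l * w j) - S i j * w i * T j k l * H k l +
      (1 / 2 * (T k k l * T l i j * w i * w j) - S i j * w i * R j k k l * w l)) -
      S4 (fun k l i j => d1 k l * d1 i j * H i l * H j k)| ≤ n ^ 4 * (49 * (ε * K ^ 2)) := by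
    rw [← S4_sub]
    refine S4_le fun k l i j => ?_
    have e : S k l * S i j * H i l * H j k + 1 / 2 * (S k l * R k l i j * w i * w j) +
      2 * (S k l * T k i j * H i l * w j) - S i j * w i * T j k l * H k l +
      (1 / 2 * (T k k l * T l i j * w i * w j) - S i j * w i * R j k k l * w l) -
      d1 k l * d1 i j * H i l * H j k =
      (S k l * S i j - d1 k l * d1 i j) * (H i l * H j k) +
      1 / 2 * (S k l * R k l i j * (w i * w j)) + 2 * (S k l * H i l * (T k i j * w j)) +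
      -(S i j * H k l * (T j k l * w i)) + (1 / 2 * ((T k k l * w i) * (T l i j * w j)) +
      -(S i j * R j k k l * (w i * w l))) := by ring
    rw [e]
    have hKK : 0 < K ^ 2 := by positivity
    have tw : ∀ l i j k, |T l i j * w k| ≤ ε * K := by
      intro l i j k
      rw [abs_mul]
      exact (mul_le_mul (hT l i j) (hw k) (abs_nonneg _) hδ1).trans h1
    have rw2 : ∀ k l i j p q, |R k l i j * (w p * w q)| ≤ ε * K ^ 2 := by
      intro k l i j p q
      rw [abs_mul, abs_mul]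
      have : |w p| * |w q| ≤ w₁ ^ 2 := by
        rw [sq]; exact mul_le_mul (hw p) (hw q) (abs_nonneg _) hw0
      exact (mul_le_mul (hR k l i j) this (by positivity) hδ2).trans h2
    have p1 : |(S k l * S i j - d1 k l * d1 i j) * (H i l * H j k)| ≤ 27 * (ε * K ^ 2) := by
      rw [abs_mul, abs_mul]
      have a1 := pr_le (hS k l) (hS i j) (hS2 i j) (d1_le k l)
      have a2 := hH3 i l
      have a3 := hH3 j k
      calc _ ≤ 3 * ε * (3 * K * (3 * K)) := by gcongr
        _ = _ := by ring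
    have p2 : |1 / 2 * (S k l * R k l i j * (w i * w j))| ≤ ε * K ^ 2 := by
      rw [mul_assoc (S k l), abs_mul, abs_mul]
      have a1 := hS2 k l
      have a2 := rw2 k l i j i j
      have a5 : |(1 / 2 : ℝ)| = 1 / 2 := by norm_num
      rw [a5]
      calc _ ≤ 1 / 2 * (2 * (ε * K ^ 2)) := by gcongr
        _ = _ := by ring
    have p3 : |2 * (S k l * H i l * (T k i j * w j))| ≤ 12 * (ε * K ^ 2) := by
      rw [abs_mul, abs_mul, abs_mul (S k l)]
      have a1 := hS2 k l
      have a2 := hH3 i l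
      have a3 := tw k i j j
      have a5 : |(2 : ℝ)| = 2 := by norm_num
      rw [a5]
      calc _ ≤ 2 * (2 * (3 * K) * (ε * K)) := by gcongr
        _ = _ := by ring
    have p4 : |-(S i j * H k l * (T j k l * w i))| ≤ 6 * (ε * K ^ 2) := by
      rw [abs_neg, abs_mul, abs_mul (S i j)]
      have a1 := hS2 i j
      have a2 := hH3 k l
      have a3 := tw j k l i
      calc _ ≤ 2 * (3 * K) * (ε * K) := by gcongr
        _ = _ := by ring
    have p5 : |1 / 2 * ((T k k l * w i) * (T l i j * w j))| ≤ ε * K ^ 2 := by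
      rw [abs_mul, abs_mul (T k k l * w i)]
      have a1 := tw k k l i
      have a2 := tw l i j j
      have a5 : |(1 / 2 : ℝ)| = 1 / 2 := by norm_num
      rw [a5]
      have a6 : |T k k l * w i| * |T l i j * w j| ≤ ε * K * (ε * K) := by gcongr
      have a7 : ε * K * (ε * K) ≤ 1 * (ε * K ^ 2) := by
        calc ε * K * (ε * K) = ε * (ε * K ^ 2) := by ring
          _ ≤ 1 * (ε * K ^ 2) := by gcongr
      linarith [abs_nonneg (T k k l * w i), show 0 ≤ ε * K ^ 2 by positivity]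
    have p6 : |-(S i j * R j k k l * (w i * w l))| ≤ 2 * (ε * K ^ 2) := by
      rw [abs_neg, mul_assoc (S i j), abs_mul]
      have a1 := hS2 i j
      have a2 := rw2 j k k l i l
      gcongr
    refine (abs_add_le _ _).trans ?_
    refine (add_le_add ((abs_add_le _ _).trans (add_le_add ((abs_add_le _ _).trans
      (add_le_add (abs_add_le _ _) le_rfl)) le_rfl)) (abs_add_le _ _)).trans ?_
    linarith
  rw [S4_one H] at m2
  have m3 := (abs_le.1 m2).2
  have m4 : b ^ 2 ≤ 2809 / 10000 * K ^ 2 := by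
    have : b ^ 2 ≤ (53 / 100 * K) ^ 2 := pow_le_pow_left₀ hb0 hb1 2
    refine this.trans (le_of_eq (by ring))
  -- the size of `ε`
  have m5 : 3 * n + 6 * n ^ 2 + 49 * n ^ 4 ≤ 57 * (1 + n) ^ 4 := by
    have : 57 * (1 + n) ^ 4 - (3 * n + 6 * n ^ 2 + 49 * n ^ 4) =
      57 + 225 * n + 336 * n ^ 2 + 228 * n ^ 3 + 8 * n ^ 4 := by ring
    have : 0 ≤ 57 + 225 * n + 336 * n ^ 2 + 228 * n ^ 3 + 8 * n ^ 4 := by positivity
    linarith
  have m6 : (3 * n + 6 * n ^ 2 + 49 * n ^ 4) * ε ≤ 57 / 3000 := by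
    have h3 := mul_le_mul_of_nonneg_right m5 hε0
    have h4 : 57 * (1 + n) ^ 4 * ε = 57 / 3000 * (ε * (3000 * (1 + n) ^ 4)) := by ring
    rw [h4] at h3
    linarith
  have m7 : (3 * n + 6 * n ^ 2 + 49 * n ^ 4) * ε * K ^ 2 ≤ 57 / 3000 * K ^ 2 :=
    mul_le_mul_of_nonneg_right m6 (by positivity)
  have m8 : 0 ≤ K ^ 2 := by positivity
  linarith

end Vale.Agent.P088.R2.H912.Pg
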